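import Vale.Agent.P004G.H175.ZT

/-!
# P004G, package G10: module Z1 (`StTF → StFold`)
-/

open Real MeasureTheory Set
open scoped ENNReal

namespace P004G
namespace Z

lemma cs' {ι : Type*} (x b y : ι → ℝ≥0∞) (h : ∀ i, x i ^ 2 ≤ b i * y i) :
    (∑' i, x i) ^ 2 ≤ (∑' i, b i) * ∑' i, y i := by
  let _ : MeasurableSpace ι := ⊤
  have h1 := ENNReal.lintegral_mul_le_Lp_mul_Lq (Measure.count : Measure ι)
    Real.HolderConjugate.two_two (f := fun i => b i ^ (1 / 2 : ℝ))
    (g := fun i => y i ^ (1 / 2 : ℝ)) measurable_from_top.aemeasurable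
    measurable_from_top.aemeasurable
  rw [lintegral_count' measurable_from_top, lintegral_count' measurable_from_top,
    lintegral_count' measurable_from_top] at h1
  have e2 : ∀ z : ℝ≥0∞, (z ^ (1 / 2 : ℝ)) ^ (2 : ℝ) = z := by
    intro z
    rw [← ENNReal.rpow_mul]; norm_num
  simp only [e2] at h1
  have h2 : ∑' i, x i ≤
      ∑' i, ((fun i => b i ^ (1 / 2 : ℝ)) * fun i => y i ^ (1 / 2 : ℝ)) i := by
    refine ENNReal.tsum_le_tsum fun i => ?_
    simp only [Pi.mul_apply]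
    rw [← ENNReal.mul_rpow_of_nonneg _ _ (by norm_num)]
    calc x i = (x i ^ (2 : ℝ)) ^ (1 / 2 : ℝ) := by rw [← ENNReal.rpow_mul]; norm_num
      _ ≤ (b i * y i) ^ (1 / 2 : ℝ) := by
        apply ENNReal.rpow_le_rpow _ (by norm_num)
        exact_mod_cast h i
  calc (∑' i, x i) ^ 2 ≤ ((∑' i, b i) ^ (1 / 2 : ℝ) * (∑' i, y i) ^ (1 / 2 : ℝ)) ^ 2 := by
        gcongr
        exact h2.trans h1
    _ = _ := by
      rw [mul_pow, ← ENNReal.rpow_natCast, ← ENNReal.rpow_natCast, ← ENNReal.rpow_mul,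
        ← ENNReal.rpow_mul]
      norm_num

/-- the mass of `G` beyond `t` -/
noncomputable def J2 (G : ℝ → ℝ) (t : ℝ) : ℝ≥0∞ := ∫⁻ u in Ioi t, ENNReal.ofReal (G u ^ 2 * u)

lemma J2_anti (G : ℝ → ℝ) {s t : ℝ} (h : s ≤ t) : J2 G t ≤ J2 G s :=
  lintegral_mono_set (Ioi_subset_Ioi h)

lemma J2_scale (G : ℝ → ℝ) {t a : ℝ} (ha : 0 < a) :
    ∫⁻ u in Ioi t, ENNReal.ofReal (G (a * u) ^ 2 * u) =
      ENNReal.ofReal (a ^ 2)⁻¹ * J2 G (a * t) := by
  have hcv := lintegral_image_eq_lintegral_abs_deriv_mul (s := Ioi t) measurableSet_Ioi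
    (f := fun u : ℝ => a * u) (f' := fun _ => a) (fun w _ => by
      have := ((hasDerivAt_id w).const_mul a).hasDerivWithinAt (s := Ioi t)
      simpa using this) (mul_right_injective₀ ha.ne').injOn
    (fun w => ENNReal.ofReal (G w ^ 2 * w))
  rw [Set.image_mul_left_Ioi ha] at hcv
  unfold J2
  rw [hcv, ← lintegral_const_mul' _ _ ENNReal.ofReal_ne_top]
  refine lintegral_congr fun u => ?_
  rw [abs_of_pos ha, ← ENNReal.ofReal_mul ha.le, ← ENNReal.ofReal_mul (by positivity)]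
  congr 1
  field_simp

lemma ofReal_abs_le_tsum {f : ℕ → ℝ} {s : ℝ} (h : HasSum f s) :
    ENNReal.ofReal |s| ≤ ∑' a, ENNReal.ofReal |f a| := by
  rcases eq_or_ne (∑' a, ENNReal.ofReal |f a|) ⊤ with h1 | h1
  · rw [h1]; exact le_top
  · have h2 : Summable fun a => |f a| := by
      have h3 := ENNReal.summable_toReal h1
      refine h3.congr fun a => ?_
      rw [ENNReal.toReal_ofReal (abs_nonneg _)]
    rw [← ENNReal.ofReal_tsum_of_nonneg (fun a => abs_nonneg _) h2]
    apply ENNReal.ofReal_le_ofReal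
    rw [← h.tsum_eq]
    exact norm_tsum_le_tsum_norm (f := f) (by simpa only [Real.norm_eq_abs] using h2)

lemma J2_comb {F G : ℝ → ℝ} (hG : Measurable G) (f : ℕ → ℝ) (hf : f 0 = 0)
    (h : ∀ u, 0 < u → HasSum (fun a : ℕ => f a * G (a * u)) (F u)) {t : ℝ} (ht : 0 ≤ t) :
    J2 F t ≤ (∑' a : ℕ, ENNReal.ofReal (|f a| / a)) ^ 2 * J2 G t := by
  set W : ℝ≥0∞ := ∑' a : ℕ, ENNReal.ofReal (|f a| / a) with hW
  have h1 : ∀ u, 0 < u → ENNReal.ofReal (F u ^ 2 * u) ≤
      W * ∑' a : ℕ, ENNReal.ofReal (|f a| * a) * ENNReal.ofReal (G (a * u) ^ 2 * u) := by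
    intro u hu
    have e1 : ENNReal.ofReal (F u ^ 2 * u) = ENNReal.ofReal |F u| ^ 2 * ENNReal.ofReal u := by
      rw [← ENNReal.ofReal_pow (abs_nonneg _), sq_abs, ← ENNReal.ofReal_mul (sq_nonneg _)]
    have h2 := cs' (fun a : ℕ => ENNReal.ofReal |f a * G (a * u)|)
      (fun a : ℕ => ENNReal.ofReal (|f a| / a))
      (fun a : ℕ => ENNReal.ofReal (|f a| * a * G (a * u) ^ 2)) (by
        intro a
        rw [← ENNReal.ofReal_pow (abs_nonneg _), ← ENNReal.ofReal_mul (by positivity)]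
        apply ENNReal.ofReal_le_ofReal
        rcases Nat.eq_zero_or_pos a with rfl | ha
        · simp [hf]
        · have ha0 : (0 : ℝ) < a := by exact_mod_cast ha
          rw [sq_abs, mul_pow, ← sq_abs (f a)]
          apply le_of_eq
          field_simp)
    rw [e1]
    calc ENNReal.ofReal |F u| ^ 2 * ENNReal.ofReal u ≤
        (∑' a : ℕ, ENNReal.ofReal |f a * G (a * u)|) ^ 2 * ENNReal.ofReal u := by
          gcongr
          exact ofReal_abs_le_tsum (h u hu)
      _ ≤ (W * ∑' a : ℕ, ENNReal.ofReal (|f a| * a * G (a * u) ^ 2)) * ENNReal.ofReal u := by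
          gcongr
      _ = _ := by
          rw [mul_assoc, ← ENNReal.tsum_mul_right (a := ENNReal.ofReal u)]
          congr 1
          refine tsum_congr fun a => ?_
          rw [← ENNReal.ofReal_mul (by positivity), ← ENNReal.ofReal_mul (by positivity)]
          congr 1
          ring
  unfold J2
  calc ∫⁻ u in Ioi t, ENNReal.ofReal (F u ^ 2 * u) ≤ ∫⁻ u in Ioi t,
        W * ∑' a : ℕ, ENNReal.ofReal (|f a| * a) * ENNReal.ofReal (G (a * u) ^ 2 * u) :=
        setLIntegral_mono' measurableSet_Ioi fun u hu => h1 u (lt_of_le_of_lt ht hu)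
    _ = W * ∑' a : ℕ, ENNReal.ofReal (|f a| * a) *
        ∫⁻ u in Ioi t, ENNReal.ofReal (G (a * u) ^ 2 * u) := by
        rw [lintegral_const_mul, lintegral_tsum]
        · congr 1
          refine tsum_congr fun a => ?_
          rw [lintegral_const_mul' _ _ ENNReal.ofReal_ne_top]
        · intro a
          apply Measurable.aemeasurable
          fun_prop
        · fun_prop
    _ ≤ W * ∑' a : ℕ, ENNReal.ofReal (|f a| / a) *
        ∫⁻ u in Ioi t, ENNReal.ofReal (G u ^ 2 * u) := by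
        apply mul_le_mul_right
        refine ENNReal.tsum_le_tsum fun a => ?_
        rcases Nat.eq_zero_or_pos a with rfl | ha
        · simp [hf]
        · have ha0 : (0 : ℝ) < a := by exact_mod_cast ha
          have ha1 : (1 : ℝ) ≤ a := by exact_mod_cast ha
          rw [J2_scale G ha0, ← mul_assoc, ← ENNReal.ofReal_mul (by positivity)]
          have e : |f a| * a * ((a : ℝ) ^ 2)⁻¹ = |f a| / a := by field_simp
          rw [e]
          gcongr
          exact J2_anti G (by nlinarith)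
    _ = _ := by
        rw [ENNReal.tsum_mul_right, ← hW]
        ring

lemma J2_fold (f : ℝ → ℝ) {Q κ : ℝ} (hQ : 0 < Q) (hκ : κ = 1 ∨ κ = -1)
    (h : ∀ u : ℝ, 0 < u → f u = κ / (Q * u ^ 2) * f (1 / (Q * u))) :
    J2 f 0 = 2 * J2 f (1 / √Q) := by
  set a : ℝ := 1 / √Q with ha
  have hsQ : 0 < √Q := Real.sqrt_pos.2 hQ
  have ha0 : 0 < a := by positivity
  have haa : Q * a * a = 1 := by
    rw [ha]
    field_simp
    rw [Real.sq_sqrt hQ.le]
  set g : ℝ → ℝ≥0∞ := fun u => ENNReal.ofReal (f u ^ 2 * u) with hg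
  have himage : (fun w : ℝ => 1 / (Q * w)) '' (Ioi a) = Ioo 0 a := by
    ext x
    simp only [Set.mem_image, Set.mem_Ioi, Set.mem_Ioo]
    constructor
    · rintro ⟨w, hw, rfl⟩
      have hw0 : 0 < w := ha0.trans hw
      refine ⟨by positivity, ?_⟩
      rw [div_lt_iff₀ (by positivity)]
      nlinarith [mul_pos hQ ha0]
    · rintro ⟨hx0, hxa⟩
      refine ⟨1 / (Q * x), ?_, ?_⟩
      · rw [lt_div_iff₀ (by positivity)]
        nlinarith [mul_pos hQ ha0]
      · field_simp
  have hder : ∀ w ∈ Ioi a, HasDerivWithinAt (fun w : ℝ => 1 / (Q * w)) (-(1 / (Q * w ^ 2)))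
      (Ioi a) w := by
    intro w hw
    have hw0 : w ≠ 0 := (ha0.trans hw).ne'
    have h1 : HasDerivAt (fun w : ℝ => (Q * w)⁻¹) (-(Q * 1) / (Q * w) ^ 2) w :=
      ((hasDerivAt_id w).const_mul Q).inv (by positivity)
    have h2 : HasDerivAt (fun w : ℝ => 1 / (Q * w)) (-(1 / (Q * w ^ 2))) w := by
      have e : (fun w : ℝ => 1 / (Q * w)) = fun w : ℝ => (Q * w)⁻¹ := by
        ext; rw [one_div]
      rw [e]
      convert h1 using 1
      field_simp
    exact h2.hasDerivWithinAt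
  have hinj : Set.InjOn (fun w : ℝ => 1 / (Q * w)) (Ioi a) := by
    intro x hx y hy hxy
    have hx0 : x ≠ 0 := (ha0.trans hx).ne'
    have hy0 : y ≠ 0 := (ha0.trans hy).ne'
    simp only at hxy
    field_simp at hxy
    exact hxy.symm
  have hcv := lintegral_image_eq_lintegral_abs_deriv_mul measurableSet_Ioi hder hinj g
  rw [himage] at hcv
  have h1 : ∫⁻ x in Ioo 0 a, g x = ∫⁻ x in Ioi a, g x := by
    rw [hcv]
    apply setLIntegral_congr_fun measurableSet_Ioi
    intro w hw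
    have hw0 : 0 < w := ha0.trans hw
    simp only [hg]
    rw [abs_neg, abs_of_pos (by positivity), ← ENNReal.ofReal_mul (by positivity)]
    congr 1
    have hκ2 : κ ^ 2 = 1 := by rcases hκ with h | h <;> rw [h] <;> norm_num
    have hfe := h w hw0
    have : f w ^ 2 = 1 / (Q * w ^ 2) ^ 2 * f (1 / (Q * w)) ^ 2 := by
      rw [hfe, mul_pow, div_pow, hκ2]
    rw [this]
    field_simp
  have h2 : J2 f 0 = (∫⁻ x in Ioo 0 a, g x) + ∫⁻ x in Ioi a, g x := by
    unfold J2
    rw [← Ioc_union_Ioi_eq_Ioi ha0.le,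
      lintegral_union measurableSet_Ioi (Set.Ioc_disjoint_Ioi le_rfl)]
    congr 1
    exact setLIntegral_congr (Ioo_ae_eq_Ioc (μ := volume) (a := (0 : ℝ)) (b := a)).symm
  rw [h2, h1, two_mul]
  rfl

/-! ### the constants -/

/-- the summand of the constants -/
noncomputable def wt (n : ℕ) : ℝ := dv n * √(n : ℝ) / n

lemma wt_nonneg (n : ℕ) : 0 ≤ wt n :=
  div_nonneg (mul_nonneg (dv_nonneg n) (Real.sqrt_nonneg _)) (Nat.cast_nonneg n)

lemma summable_wt (S : ℕ) :
    Summable ((Nat.factoredNumbers S.primeFactors : Set ℕ).indicator wt) := by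
  rw [← summable_subtype_iff_indicator]
  have h := (EulerProduct.summable_and_hasSum_factoredNumbers_prod_filter_prime_tsum (f := wt)
    (by simp [wt, P004.dv]) (fun {m n} hmn => ?_) (fun {p} hp => ?_) S.primeFactors).1
  · refine h.congr fun x => ?_
    rw [Real.norm_of_nonneg (wt_nonneg _)]
    rfl
  · have h1 : dv (m * n) = dv m * dv n := by
      unfold P004.dv
      rw [hmn.card_divisors_mul]
      push_cast; ring
    unfold wt
    rw [h1]
    push_cast
    rw [Real.sqrt_mul (by positivity)]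
    ring
  · have hp1 : (1 : ℝ) < p := by exact_mod_cast hp.one_lt
    have hp0 : (0 : ℝ) < p := by linarith
    have hs1 : 1 < √(p : ℝ) := by rw [Real.lt_sqrt (by norm_num)]; simpa using hp1
    have hs0 : 0 < √(p : ℝ) := by linarith
    have hr : ‖(√(p : ℝ))⁻¹‖ < 1 := by
      rw [Real.norm_of_nonneg (by positivity)]
      exact inv_lt_one_of_one_lt₀ hs1
    have h2 := (summable_pow_mul_geometric_of_norm_lt_one 1 hr).add
      (summable_pow_mul_geometric_of_norm_lt_one 0 hr)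
    refine h2.congr fun k => ?_
    rw [Real.norm_of_nonneg (wt_nonneg _)]
    unfold wt
    have h3 : dv (p ^ k) = k + 1 := by
      unfold P004.dv
      rw [Nat.divisors_prime_pow hp, Finset.card_map, Finset.card_range]
      push_cast; ring
    have h4 : √((p ^ k : ℕ) : ℝ) = √(p : ℝ) ^ k := by
      push_cast
      rw [Real.sqrt_eq_rpow, Real.sqrt_eq_rpow, ← Real.rpow_natCast, ← Real.rpow_natCast,
        ← Real.rpow_mul (by positivity), ← Real.rpow_mul (by positivity), mul_comm]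
    have h5 : ((p ^ k : ℕ) : ℝ) = √(p : ℝ) ^ k * √(p : ℝ) ^ k := by
      rw [← mul_pow, Real.mul_self_sqrt hp0.le]
      push_cast; ring
    have h6 : √(p : ℝ) ^ k ≠ 0 := (pow_pos hs0 k).ne'
    rw [h3, h4, h5, inv_pow, mul_div_mul_right _ _ h6]
    rw [div_eq_mul_inv]
    ring

/-- the constant of the smooth part -/
noncomputable def W2 (S : ℕ) : ℝ≥0∞ :=
  ∑' a : ℕ, ENNReal.ofReal ((Nat.factoredNumbers S.primeFactors : Set ℕ).indicator wt a)

lemma W2_ne_top (S : ℕ) : W2 S ≠ ⊤ := (summable_wt S).tsum_ofReal_ne_top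

lemma sf_le_W2 (S : ℕ) {A : ℕ → ℤ} (hA : LD A) :
    ∑' a : ℕ, ENNReal.ofReal (|(sf S A a : ℝ)| / a) ≤ W2 S := by
  refine ENNReal.tsum_le_tsum fun a => ENNReal.ofReal_le_ofReal ?_
  by_cases h : a ∈ (Nat.factoredNumbers S.primeFactors : Set ℕ)
  · rw [Set.indicator_of_mem h]
    unfold wt
    gcongr
    exact PB_sf S hA a
  · rw [Set.indicator_of_notMem h]
    have h0 : sf S A a = 0 := by
      by_contra h1
      apply h
      rw [Nat.mem_factoredNumbers_iff_primeFactors_subset]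
      refine ⟨?_, ?_⟩
      · rintro rfl
        simp at h1
      · by_contra h2
        exact h1 (sf_apply' S A h2)
    rw [h0]
    simp

/-- the constant of the inverse Euler factors -/
noncomputable def W1 (S : ℕ) : ℝ≥0∞ := ∑ a ∈ (K0 S).divisors, ENNReal.ofReal (wt a)

lemma W1_ne_top (S : ℕ) : W1 S ≠ ⊤ := (ENNReal.sum_lt_top.2 fun _ _ => ENNReal.ofReal_lt_top).ne

lemma ee_le_W1 {S : ℕ} (hS : S ≠ 0) {A : ℕ → ℤ} (hA : LD A) :
    ∑' a : ℕ, ENNReal.ofReal (|(ee S A a : ℝ)| / a) ≤ W1 S := by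
  rw [tsum_eq_sum (s := (K0 S).divisors)]
  · refine Finset.sum_le_sum fun a _ => ENNReal.ofReal_le_ofReal ?_
    unfold wt
    gcongr
    exact PB_ee S hA a
  · intro a ha
    have h0 : ee S A a = 0 := by
      by_contra h1
      exact ha (ee_support hS h1)
    rw [h0]
    simp

lemma measurable_TF (f : ArithmeticFunction ℤ) : Measurable (TF f) := by
  unfold TF
  apply Measurable.const_mul
  apply Measurable.tsum
  intro n
  fun_prop

end Z

variable [Crv]

open Z in
/-- Module Z1 -/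
theorem pfZ1 : StZ1 := by
  rintro ⟨k₀, hk₀, hTF⟩
  set CE : ℝ≥0∞ := W1 bd ^ 2 * (2 * W2 bd ^ 2) with hCE
  have hCE' : CE ≠ ⊤ := by
    rw [hCE]
    exact ENNReal.mul_ne_top (ENNReal.pow_ne_top (W1_ne_top _))
      (ENNReal.mul_ne_top (by norm_num) (ENNReal.pow_ne_top (W2_ne_top _)))
  refine ⟨k₀, hk₀, CE.toReal + 1, by positivity, fun m hm => ?_⟩
  obtain ⟨A, q, κ, hA, ⟨hq, hκ, hfe⟩, hm', h1, h2⟩ := hTF m hm
  have hth : Measurable (theta m) := by
    have h3 := measurable_TF (cf bd A)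
    have h4 : TF (cf bd A) = theta m := funext (TF_cf hm')
    rwa [h4] at h3
  have hTH : Measurable (TH A) := measurable_TF (af A hA)
  have e1 : J2 (theta m) 0 ≤ (∑' a : ℕ, ENNReal.ofReal (|(ee bd A a : ℝ)| / a)) ^ 2 *
      J2 (TH A) 0 := by
    refine J2_comb hTH (fun a => (ee bd A a : ℝ)) (by simp) (fun u hu => ?_) le_rfl
    have h := TF_mul (PB_ee bd hA) (PB_af hA) hu
    rw [ee_mul bd hA, TF_cf hm'] at h
    exact h
  have e2 : J2 (TH A) (1 / √q) ≤ (∑' a : ℕ, ENNReal.ofReal (|(sf bd A a : ℝ)| / a)) ^ 2 *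
      J2 (theta m) (1 / √q) :=
    J2_comb hth (fun a => (sf bd A a : ℝ)) (by simp) (fun u hu => TH_eq_theta hA hm' hu)
      (by positivity)
  have e3 := J2_fold (TH A) hq hκ hfe
  have hm0 : (0 : ℝ) < |(m : ℝ)| := by
    rw [abs_pos]
    exact_mod_cast hm.ne_zero
  have hk0 : (0 : ℝ) < k₀ := by exact_mod_cast hk₀
  have e4 : 1 / (3 * (k₀ * |(m : ℝ)|)) ≤ 1 / √q := by
    apply one_div_le_one_div_of_le (Real.sqrt_pos.2 hq)
    nlinarith [mul_pos hk0 hm0]
  calc Jz m = J2 (theta m) 0 := rfl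
    _ ≤ W1 bd ^ 2 * (2 * (W2 bd ^ 2 * J2 (theta m) (1 / √q))) := by
        refine e1.trans ?_
        rw [e3]
        gcongr
        · exact ee_le_W1 bd_ne hA
        · refine e2.trans ?_
          gcongr
          exact sf_le_W2 bd hA
    _ = CE * J2 (theta m) (1 / √q) := by rw [hCE]; ring
    _ ≤ ENNReal.ofReal (CE.toReal + 1) * J2 (theta m) (1 / (3 * (k₀ * |(m : ℝ)|))) := by
        gcongr
        · rw [← ENNReal.ofReal_toReal hCE']
          apply ENNReal.ofReal_le_ofReal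
          rw [ENNReal.toReal_ofReal ENNReal.toReal_nonneg]
          linarith
        · exact J2_anti _ e4
    _ = _ := rfl

end P004G
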