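import Vale.Agent.P004G.H175.ZT
import Vale.Agent.P004.H760.Vanish

/-!
# P004G, package G10: rapidly decreasing functions on `(0,∞)`

* `Z.RD f` : `f` is continuous on `(0,∞)` and smaller than every power at `0` and at `∞`;
* `Z.RD.integrable_poly` : `f u * P (log u)` is integrable;
* `Z.TH_RD`, `Z.theta_RD` : the instances;
* `Z.fold`, `Z.fold_moment` : folding of `(0, a]` to `[1/(q a), ∞)` by a functional equation.
-/

open Real MeasureTheory Set Filter Asymptotics
open scoped ENNReal Topology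

namespace P004G
namespace Z

/-- continuous on `(0,∞)`, smaller than every power at `0` and at `∞` -/
structure RD (f : ℝ → ℝ) : Prop where
  cont : ContinuousOn f (Ioi 0)
  top : ∀ r : ℝ, f =O[atTop] (fun t : ℝ => t ^ r)
  bot : ∀ r : ℝ, f =O[𝓝[>] 0] (fun t : ℝ => t ^ r)

lemma RD.rapid {f : ℝ → ℝ} (hf : RD f) : P004.Vanish.Rapid (fun u => ((f u : ℝ) : ℂ)) where
  loc := (Complex.continuous_ofReal.comp_continuousOn hf.cont).locallyIntegrableOn
    measurableSet_Ioi
  top := fun r => (isBigO_norm_left.1 (by simpa using (hf.top (-r)).norm_left))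
  bot := fun r => (isBigO_norm_left.1 (by simpa using (hf.bot (-r)).norm_left))

lemma RD.congr {f g : ℝ → ℝ} (hf : RD f) (h : ∀ u, 0 < u → g u = f u) : RD g where
  cont := hf.cont.congr fun u hu => h u hu
  top := fun r => (hf.top r).congr' (by
    filter_upwards [eventually_gt_atTop 0] with u hu using (h u hu).symm) EventuallyEq.rfl
  bot := fun r => (hf.bot r).congr' (by
    filter_upwards [self_mem_nhdsWithin] with u hu using (h u hu).symm) EventuallyEq.rfl

lemma RD.const_mul {f : ℝ → ℝ} (hf : RD f) (c : ℝ) : RD (fun u => c * f u) where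
  cont := continuousOn_const.mul hf.cont
  top := fun r => (hf.top r).const_mul_left c
  bot := fun r => (hf.bot r).const_mul_left c

lemma RD.sum {ι : Type*} {s : Finset ι} {f : ι → ℝ → ℝ} (hf : ∀ i ∈ s, RD (f i)) :
    RD (fun u => ∑ i ∈ s, f i u) where
  cont := continuousOn_finsetSum s fun i hi => (hf i hi).cont
  top := fun r => by
    have h := IsBigO.sum fun i hi => (hf i hi).top r
    refine h.congr_left fun u => ?_
    rw [Finset.sum_apply]
  bot := fun r => by
    have h := IsBigO.sum fun i hi => (hf i hi).bot r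
    refine h.congr_left fun u => ?_
    rw [Finset.sum_apply]

lemma RD.dil {f : ℝ → ℝ} (hf : RD f) {a : ℝ} (ha : 0 < a) : RD (fun u => f (a * u)) where
  cont := hf.cont.comp (by fun_prop) fun u hu => mul_pos ha hu
  top := fun r => by
    have h1 := (hf.top r).comp_tendsto (tendsto_id.const_mul_atTop ha)
    refine h1.trans ?_
    apply IsBigO.of_bound (a ^ r)
    filter_upwards [eventually_gt_atTop 0] with u hu
    simp only [Function.comp, id]
    rw [Real.mul_rpow ha.le hu.le, norm_mul, Real.norm_of_nonneg (by positivity : 0 ≤ a ^ r)]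
  bot := fun r => by
    have h2 : Tendsto (fun u : ℝ => a * u) (𝓝[>] 0) (𝓝[>] 0) := by
      apply tendsto_nhdsWithin_of_tendsto_nhds_of_eventually_within
      · have : Tendsto (fun u : ℝ => a * u) (𝓝 0) (𝓝 (a * 0)) :=
          (continuous_const.mul continuous_id).tendsto 0
        rw [mul_zero] at this
        exact this.mono_left nhdsWithin_le_nhds
      · filter_upwards [self_mem_nhdsWithin] with u hu
        exact mul_pos ha hu
    have h1 := (hf.bot r).comp_tendsto h2
    refine h1.trans ?_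
    apply IsBigO.of_bound (a ^ r)
    filter_upwards [self_mem_nhdsWithin] with u hu
    have hu0 : (0 : ℝ) < u := hu
    simp only [Function.comp]
    rw [Real.mul_rpow ha.le hu0.le, norm_mul, Real.norm_of_nonneg (by positivity : 0 ≤ a ^ r)]

lemma RD.integrable_log {f : ℝ → ℝ} (hf : RD f) (i : ℕ) :
    IntegrableOn (fun u => f u * Real.log u ^ i) (Ioi 0) := by
  have h1 := (hf.rapid.log_pow i).conv 1
  have h2 : IntegrableOn (fun u : ℝ => ((f u * Real.log u ^ i : ℝ) : ℂ)) (Ioi 0) := by
    refine h1.congr_fun (fun u _ => ?_) measurableSet_Ioi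
    simp only [sub_self, Complex.cpow_zero, one_smul, Complex.real_smul]
    push_cast
    ring
  have h3 := h2.re
  exact h3

lemma RD.integrable_poly {f : ℝ → ℝ} (hf : RD f) (P : Polynomial ℝ) :
    IntegrableOn (fun u => f u * P.eval (Real.log u)) (Ioi 0) := by
  have h1 : ∀ u : ℝ, f u * P.eval (Real.log u) =
      ∑ i ∈ Finset.range (P.natDegree + 1), P.coeff i * (f u * Real.log u ^ i) := by
    intro u
    rw [Polynomial.eval_eq_sum_range, Finset.mul_sum]
    exact Finset.sum_congr rfl fun i _ => by ring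
  simp_rw [h1]
  exact integrable_finsetSum _ fun i _ => (hf.integrable_log i).const_mul _

lemma RD.poly_zero {f : ℝ → ℝ} (hf : RD f) {r : ℕ}
    (hV : ∀ i < r, ∫ u in Ioi (0 : ℝ), f u * Real.log u ^ i = 0)
    (P : Polynomial ℝ) (hP : P.degree < r) :
    ∫ u in Ioi (0 : ℝ), f u * P.eval (Real.log u) = 0 := by
  have h1 : ∀ u : ℝ, f u * P.eval (Real.log u) =
      ∑ i ∈ Finset.range (P.natDegree + 1), P.coeff i * (f u * Real.log u ^ i) := by
    intro u
    rw [Polynomial.eval_eq_sum_range, Finset.mul_sum]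
    exact Finset.sum_congr rfl fun i _ => by ring
  simp_rw [h1]
  rw [integral_finsetSum _ fun i _ => (hf.integrable_log i).const_mul _]
  refine Finset.sum_eq_zero fun i hi => ?_
  rw [integral_const_mul]
  by_cases hi2 : i < r
  · rw [hV i hi2, mul_zero]
  · rw [Polynomial.coeff_eq_zero_of_degree_lt, zero_mul]
    refine lt_of_lt_of_le hP ?_
    exact_mod_cast not_lt.1 hi2

/-! ### the functional equation gives the decay at `0` -/

lemma RD.of_fe {f : ℝ → ℝ} (hc : ContinuousOn f (Ioi 0))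
    (ht : ∀ r : ℝ, f =O[atTop] (fun t : ℝ => t ^ r)) {q κ : ℝ} (hQ : 0 < q)
    (hfe : ∀ u : ℝ, 0 < u → f u = κ / (q * u ^ 2) * f (1 / (q * u))) : RD f where
  cont := hc
  top := ht
  bot := fun r => by
    have h1 := ht (-(r + 2))
    have h2 : Tendsto (fun u : ℝ => 1 / (q * u)) (𝓝[>] 0) atTop := by
      have h3 : Tendsto (fun u : ℝ => q⁻¹ * u⁻¹) (𝓝[>] 0) atTop :=
        tendsto_inv_nhdsGT_zero.const_mul_atTop (inv_pos.2 hQ)
      refine h3.congr fun u => ?_
      rw [one_div, mul_inv]
    have h4 := (h1.comp_tendsto h2)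
    have h5 : (fun u : ℝ => κ / (q * u ^ 2)) =O[𝓝[>] 0] (fun u : ℝ => u ^ (-2 : ℝ)) := by
      apply IsBigO.of_bound (|κ| / q)
      filter_upwards [self_mem_nhdsWithin] with u hu
      have hu0 : (0 : ℝ) < u := hu
      rw [norm_div, Real.norm_eq_abs, norm_mul, Real.norm_of_nonneg hQ.le,
        Real.norm_of_nonneg (by positivity : (0 : ℝ) ≤ u ^ 2),
        Real.norm_of_nonneg (by positivity : (0 : ℝ) ≤ u ^ (-2 : ℝ)), Real.rpow_neg hu0.le,
        Real.rpow_two]
      apply le_of_eq
      field_simp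
    have h6 := h5.mul h4
    have h7 : (fun u : ℝ => u ^ (-2 : ℝ) * ((fun t : ℝ => t ^ (-(r + 2))) ∘
        fun u => 1 / (q * u)) u) =O[𝓝[>] 0] (fun u : ℝ => u ^ r) := by
      apply IsBigO.of_bound (q ^ (r + 2))
      filter_upwards [self_mem_nhdsWithin] with u hu
      have hu0 : (0 : ℝ) < u := hu
      have e : u ^ (-2 : ℝ) * ((fun t : ℝ => t ^ (-(r + 2))) ∘ fun u => 1 / (q * u)) u =
          q ^ (r + 2) * u ^ r := by
        simp only [Function.comp]
        rw [one_div, Real.inv_rpow (by positivity), ← Real.rpow_neg (by positivity), neg_neg,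
          Real.mul_rpow hQ.le hu0.le, mul_left_comm, ← Real.rpow_add hu0]
        congr 2
        ring
      rw [e, norm_mul, Real.norm_of_nonneg (by positivity : (0 : ℝ) ≤ q ^ (r + 2))]
    refine (h6.trans h7).congr' ?_ EventuallyEq.rfl
    filter_upwards [self_mem_nhdsWithin] with u hu
    have hu0 : (0 : ℝ) < u := hu
    simp only [Function.comp]
    rw [← hfe u hu0]

/-! ### exponential sums -/

lemma continuousOn_TF {f : ArithmeticFunction ℤ} (hf : PB f) : ContinuousOn (TF f) (Ioi 0) := by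
  intro u hu
  have hu0 : (0 : ℝ) < u := hu
  apply ContinuousAt.continuousWithinAt
  have h1 : ContinuousOn (fun u : ℝ => ∑' n : ℕ, (f n : ℝ) *
      Real.exp (-Real.pi * n * u)) (Ioi (u / 2)) := by
    refine continuousOn_tsum (u := fun n : ℕ => |(f n : ℝ)| * Real.exp (-Real.pi * n * (u / 2)))
      ?_ (summable_TF hf (by positivity)) ?_
    · intro n
      fun_prop
    · intro n x hx
      rw [norm_mul, Real.norm_eq_abs, Real.norm_of_nonneg (Real.exp_pos _).le]
      have hx' : u / 2 ≤ x := (le_of_lt hx)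
      have h2 : Real.exp (-Real.pi * n * x) ≤ Real.exp (-Real.pi * n * (u / 2)) := by
        apply Real.exp_le_exp.2
        have : (0 : ℝ) ≤ Real.pi * n := by positivity
        nlinarith
      exact mul_le_mul_of_nonneg_left h2 (abs_nonneg _)
  have h2 : ContinuousOn (TF f) (Ioi (u / 2)) := by
    unfold TF
    exact continuousOn_const.mul h1
  exact h2.continuousAt (Ioi_mem_nhds (by linarith))

lemma TF_le {f : ArithmeticFunction ℤ} (hf : PB f) :
    ∃ C : ℝ, 0 ≤ C ∧ ∀ u : ℝ, 1 ≤ u → |TF f u| ≤ C * Real.exp (-Real.pi * u) := by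
  have hs : Summable (fun n : ℕ => |(f n : ℝ)| * Real.exp (-Real.pi * (n - 1))) := by
    have h1 := (summable_TF hf one_pos).mul_right (Real.exp Real.pi)
    refine h1.congr fun n => ?_
    rw [mul_assoc, ← Real.exp_add]
    congr 2
    ring
  refine ⟨4 * ∑' n : ℕ, |(f n : ℝ)| * Real.exp (-Real.pi * (n - 1)), ?_, ?_⟩
  · exact mul_nonneg (by norm_num) (tsum_nonneg fun n => by positivity)
  intro u hu
  have hu0 : 0 < u := by linarith
  unfold TF
  rw [abs_mul, abs_of_pos (by norm_num : (0 : ℝ) < 4), mul_assoc]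
  apply mul_le_mul_of_nonneg_left _ (by norm_num)
  rw [← tsum_mul_right]
  have h1 : ‖∑' n : ℕ, (f n : ℝ) * Real.exp (-Real.pi * n * u)‖ ≤
      ∑' n : ℕ, |(f n : ℝ)| * Real.exp (-Real.pi * (n - 1)) * Real.exp (-Real.pi * u) := by
    refine tsum_of_norm_bounded (hs.mul_right _).hasSum fun n => ?_
    rw [norm_mul, Real.norm_eq_abs, Real.norm_of_nonneg (Real.exp_pos _).le]
    rcases Nat.eq_zero_or_pos n with rfl | hn
    · simp
    · rw [mul_assoc |(f n : ℝ)|]
      refine mul_le_mul_of_nonneg_left ?_ (abs_nonneg _)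
      rw [← Real.exp_add]
      apply Real.exp_le_exp.2
      have hn1 : (1 : ℝ) ≤ n := by exact_mod_cast hn
      have := Real.pi_pos
      nlinarith [mul_nonneg (sub_nonneg.2 hn1) (sub_nonneg.2 hu)]
  exact h1

lemma TF_top {f : ArithmeticFunction ℤ} (hf : PB f) (r : ℝ) :
    TF f =O[atTop] (fun t : ℝ => t ^ r) := by
  obtain ⟨C, -, hC⟩ := TF_le hf
  have h1 : TF f =O[atTop] fun x : ℝ => Real.exp (-Real.pi * x) := by
    apply IsBigO.of_bound C
    filter_upwards [eventually_ge_atTop (1 : ℝ)] with x hx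
    rw [Real.norm_eq_abs, Real.norm_of_nonneg (Real.exp_pos _).le]
    exact hC x hx
  exact h1.trans (isLittleO_exp_neg_mul_rpow_atTop Real.pi_pos r).isBigO

theorem TH_RD {A : ℕ → ℤ} (hA : LD A) {q κ : ℝ} (h : FEq A q κ) : RD (TH A) :=
  RD.of_fe (f := TH A) (continuousOn_TF (PB_af hA)) (TF_top (PB_af hA)) h.1 h.2.2

theorem theta_RD [Crv] {A : ℕ → ℤ} (hA : LD A) {q κ : ℝ} (h : FEq A q κ) {m : ℤ}
    (hm : ∀ n : ℕ, n.Coprime bd → A n = ca n * jacobiSym m n) : RD (theta m) := by
  refine RD.congr (f := fun u => ∑ k ∈ (K0 bd).divisors, (ee bd A k : ℝ) * TH A (k * u))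
    (RD.sum fun k hk => ?_) fun u hu => theta_eq_TH hA hm hu
  have hk0 : (0 : ℝ) < k := by exact_mod_cast Nat.pos_of_mem_divisors hk
  exact ((TH_RD hA h).dil hk0).const_mul _

/-! ### folding -/

/-- folding of `(0, a)` by the functional equation -/
lemma fold {f : ℝ → ℝ} {q κ : ℝ} (hQ : 0 < q)
    (hfe : ∀ u : ℝ, 0 < u → f u = κ / (q * u ^ 2) * f (1 / (q * u)))
    {a : ℝ} (ha : 0 < a) (h : ℝ → ℝ) :
    ∫ u in Ioo 0 a, f u * h (Real.log u) =
      κ * ∫ u in Ioi (1 / (q * a)), f u * h (-Real.log q - Real.log u) := by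
  have himg : (fun u : ℝ => 1 / (q * u)) '' (Ioo 0 a) = Ioi (1 / (q * a)) := by
    ext v
    constructor
    · rintro ⟨u, ⟨hu0, hua⟩, rfl⟩
      show 1 / (q * a) < 1 / (q * u)
      apply one_div_lt_one_div_of_lt (by positivity)
      exact mul_lt_mul_of_pos_left hua hQ
    · intro hv
      have hv' : 1 / (q * a) < v := hv
      have hv0 : 0 < v := lt_trans (by positivity) hv'
      refine ⟨1 / (q * v), ⟨by positivity, ?_⟩, ?_⟩
      · rw [div_lt_iff₀ (by positivity)] at hv' ⊢
        linarith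
      · simp only
        field_simp
  have hinj : InjOn (fun u : ℝ => 1 / (q * u)) (Ioo 0 a) := by
    intro x hx y hy hxy
    have hx0 : 0 < x := hx.1
    have hy0 : 0 < y := hy.1
    simp only at hxy
    rw [div_eq_div_iff (by positivity) (by positivity)] at hxy
    have : q * y = q * x := by linarith
    exact (mul_left_cancel₀ hQ.ne' this).symm
  have hder : ∀ u ∈ Ioo 0 a, HasDerivWithinAt (fun u : ℝ => 1 / (q * u))
      (-(1 / (q * u ^ 2))) (Ioo 0 a) u := by
    intro u hu
    have hu0 : 0 < u := hu.1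
    have h1 : HasDerivAt (fun u : ℝ => q⁻¹ * u⁻¹) (q⁻¹ * (-(u ^ 2)⁻¹)) u :=
      (hasDerivAt_inv hu0.ne').const_mul _
    have e : (fun u : ℝ => 1 / (q * u)) = fun u : ℝ => q⁻¹ * u⁻¹ := by
      funext u
      rw [one_div, mul_inv]
    rw [e]
    refine (h1.congr_deriv ?_).hasDerivWithinAt
    field_simp
  have hcv := integral_image_eq_integral_abs_deriv_smul measurableSet_Ioo hder hinj
    (fun v => f v * h (-Real.log q - Real.log v))
  rw [himg] at hcv
  rw [hcv, ← integral_const_mul]
  refine setIntegral_congr_fun measurableSet_Ioo fun u hu => ?_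
  have hu0 : 0 < u := hu.1
  simp only [smul_eq_mul]
  have e1 : -Real.log q - Real.log (1 / (q * u)) = Real.log u := by
    rw [one_div, Real.log_inv, Real.log_mul hQ.ne' hu0.ne']
    ring
  rw [e1, abs_neg, abs_of_pos (by positivity), hfe u hu0]
  ring

/-- a polynomial moment, folded at an arbitrary point `a` -/
lemma fold_moment {f : ℝ → ℝ} (hf : RD f) {q κ : ℝ} (hQ : 0 < q)
    (hfe : ∀ u : ℝ, 0 < u → f u = κ / (q * u ^ 2) * f (1 / (q * u)))
    {a : ℝ} (ha : 0 < a) (P : Polynomial ℝ) :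
    ∫ u in Ioi (0 : ℝ), f u * P.eval (Real.log u) =
      (∫ u in Ioi a, f u * P.eval (Real.log u)) +
      κ * ∫ u in Ioi (1 / (q * a)), f u * P.eval (-Real.log q - Real.log u) := by
  have hint := hf.integrable_poly P
  have hun : Ioi (0 : ℝ) = Ioc 0 a ∪ Ioi a := (Ioc_union_Ioi_eq_Ioi ha.le).symm
  have h1 : IntegrableOn (fun u => f u * P.eval (Real.log u)) (Ioc 0 a) :=
    hint.mono_set fun u hu => hu.1
  have h2 : IntegrableOn (fun u => f u * P.eval (Real.log u)) (Ioi a) :=
    hint.mono_set (Ioi_subset_Ioi ha.le)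
  conv_lhs => rw [hun]
  rw [setIntegral_union _ measurableSet_Ioi h1 h2, integral_Ioc_eq_integral_Ioo,
    fold hQ hfe ha (fun x => P.eval x), add_comm]
  exact Set.disjoint_left.2 fun x hx hx' => absurd hx.2 (not_le.2 hx')

end Z
end P004G
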