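import Vale.Agent.P004G.H175.Z0
import Vale.Agent.P004.B

/-!
# P004G, package G8 (a): `StLeuler`
-/

open Real MeasureTheory Set Filter
open scoped ENNReal Topology

namespace P004G
namespace Eul

variable {A : ℕ → ℤ}

lemma summable_dir (hA : LD A) {σ : ℝ} (hσ : 3 / 2 < σ) :
    Summable (fun n : ℕ => |(A n : ℝ)| / (n : ℝ) ^ σ) := by
  obtain ⟨C, -, B, hB⟩ := P004.pfDiv.1 1
  set θ : ℝ := min (σ - 3 / 2) 1 with hθ
  have hθ0 : 0 < θ := lt_min (by linarith) one_pos
  have hθ1 : θ ≤ 1 := min_le_right _ _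
  have hθσ : θ ≤ σ - 3 / 2 := min_le_left _ _
  have h1 := hB θ hθ0 hθ1
  have h2 : Summable (fun n : ℕ => dv n ^ 1 * (n : ℝ) ^ (-1 - θ)) := by
    have h3 : ∀ n : ℕ, 0 ≤ dv n ^ 1 * (n : ℝ) ^ (-1 - θ) := fun n => by
      unfold P004.dv; positivity
    have h4 : (∑' n : ℕ, ENNReal.ofReal (dv n ^ 1 * (n : ℝ) ^ (-1 - θ))) ≠ ⊤ :=
      ne_top_of_le_ne_top ENNReal.ofReal_ne_top h1
    have h5 := ENNReal.summable_toReal h4
    refine h5.congr fun n => ?_
    rw [ENNReal.toReal_ofReal (h3 n)]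
  refine h2.of_nonneg_of_le (fun n => by positivity) (fun n => ?_)
  rcases Nat.eq_zero_or_pos n with rfl | hn
  · rw [hA.zero]
    simp [P004.dv]
  · have hn1 : (1 : ℝ) ≤ n := by exact_mod_cast hn
    have hn0 : (0 : ℝ) < n := by linarith
    rw [pow_one, div_le_iff₀ (by positivity)]
    refine (pfLbound A hA n).trans ?_
    rw [mul_assoc]
    apply mul_le_mul_of_nonneg_left _ (by unfold P004.dv; positivity)
    rw [Real.sqrt_eq_rpow, ← Real.rpow_add hn0]
    exact Real.rpow_le_rpow_of_exponent_le hn1 (by linarith)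

lemma summable_LS (hA : LD A) {s : ℂ} (hs : 3 / 2 < s.re) :
    Summable (fun n : ℕ => ‖(A n : ℂ) / (n : ℂ) ^ s‖) := by
  refine (summable_dir hA hs).congr fun n => ?_
  rcases Nat.eq_zero_or_pos n with rfl | hn
  · rw [hA.zero]; simp
  · rw [norm_div, Complex.norm_intCast, Complex.norm_natCast_cpow_of_pos hn]

/-- a sequence with a linear recursion of order two -/
lemma sum_rec {g : ℕ → ℂ} (hg : Summable g) {a d : ℂ} (h0 : g 0 = 1) (h1 : g 1 = a)
    (hr : ∀ k, g (k + 2) = a * g (k + 1) - d * g k) : ∑' k, g k = (1 - a + d)⁻¹ := by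
  have hg1 : Summable (fun k => g (k + 1)) := (summable_nat_add_iff 1).2 hg
  have e1 : ∑' k, g k = 1 + ∑' k, g (k + 1) := by rw [hg.tsum_eq_zero_add, h0]
  have e2 : ∑' k, g (k + 1) = a + ∑' k, g (k + 2) := by
    rw [hg1.tsum_eq_zero_add, zero_add, h1]
  have e3 : ∑' k, g (k + 2) = a * ∑' k, g (k + 1) - d * ∑' k, g k := by
    simp only [hr]
    rw [(hg1.mul_left a).tsum_sub (hg.mul_left d), tsum_mul_left, tsum_mul_left]
  have e4 : (∑' k, g k) * (1 - a + d) = 1 := by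
    have h5 : ∑' k, g (k + 1) = ∑' k, g k - 1 := by rw [e1]; ring
    rw [e3, h5] at e2
    linear_combination e2
  exact eq_inv_of_mul_eq_one_left e4

end Eul

open Eul in
/-- Module L2 -/
theorem pfLeuler : StLeuler := by
  classical
  intro A hA s hs
  have h := EulerProduct.eulerProduct_hasProd (f := fun n : ℕ => (A n : ℂ) / (n : ℂ) ^ s)
    (by simp [hA.one]) (fun {m n} hmn => by
      rw [hA.mul m n hmn]
      push_cast
      rw [Complex.natCast_mul_natCast_cpow, mul_div_mul_comm]) (summable_LS hA hs)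
    (by simp [hA.zero])
  refine h.congr_fun fun p => ?_
  have hp : (p : ℕ).Prime := p.2
  have hp0 : ((p : ℕ) : ℂ) ≠ 0 := by exact_mod_cast hp.ne_zero
  set x : ℂ := ((p : ℕ) : ℂ) ^ (-s) with hx
  have hterm : ∀ k : ℕ, (A ((p : ℕ) ^ k) : ℂ) / (((p : ℕ) ^ k : ℕ) : ℂ) ^ s =
      (A ((p : ℕ) ^ k) : ℂ) * x ^ k := by
    intro k
    push_cast
    rw [← Complex.natCast_cpow_natCast_mul, div_eq_mul_inv, hx, ← Complex.cpow_nat_mul,
      ← Complex.cpow_neg]
    congr 2
    ring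
  have hsum : Summable (fun k : ℕ => (A ((p : ℕ) ^ k) : ℂ) * x ^ k) := by
    have h1 := (summable_LS hA hs).of_norm.comp_injective (Nat.pow_right_injective hp.one_lt)
    refine h1.congr fun k => ?_
    simp only [Function.comp]
    exact hterm k
  simp only [hterm]
  have hg0 : (A ((p : ℕ) ^ 0) : ℂ) * x ^ 0 = 1 := by simp [hA.one]
  have hg1 : (A ((p : ℕ) ^ 1) : ℂ) * x ^ 1 = A p * x := by simp
  split_ifs with hc
  · rw [sum_rec (a := A p * x) (d := (p : ℕ) * x ^ 2) hsum hg0 hg1 (fun k => by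
      rw [hc k]; push_cast; ring)]
    congr 2
    rw [hx, ← Complex.cpow_nat_mul, show (1 : ℂ) - 2 * s = 1 + ((2 : ℕ) : ℂ) * (-s) by
      push_cast; ring, Complex.cpow_add _ _ hp0, Complex.cpow_one]
  · rcases hA.loc p hp with ⟨h1, -⟩ | ⟨h1, -⟩
    · exact absurd h1 hc
    · rw [sum_rec (a := A p * x) (d := 0) hsum hg0 hg1 (fun k => by
        rw [h1 (k + 1)]; push_cast; ring), add_zero]

end P004G
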