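import Vale.Agent.P004G.Iface

/-!
# P004G, package G8 (d): `StBlock → StMom`
-/

open Real MeasureTheory Set Filter
open scoped ENNReal Topology

namespace P004G
namespace Mom

lemma log_ge_one {X : ℕ} (hX : 3 ≤ X) : 1 ≤ Real.log X := by
  have h1 : (3 : ℝ) ≤ X := by exact_mod_cast hX
  rw [Real.le_log_iff_exp_le (by linarith)]
  have := Real.exp_one_lt_d9
  linarith

lemma sum_half (X n : ℕ) : ∑ i ∈ Finset.range n, ((X / 2 ^ i : ℕ) : ℝ) ≤ 2 * X := by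
  have h1 : ∀ i : ℕ, ((X / 2 ^ i : ℕ) : ℝ) ≤ X * (1 / 2 : ℝ) ^ i := by
    intro i
    refine Nat.cast_div_le.trans (le_of_eq ?_)
    push_cast
    rw [div_pow, one_pow]
    ring
  refine (Finset.sum_le_sum fun i _ => h1 i).trans ?_
  rw [← Finset.mul_sum]
  have h2 : ∑ i ∈ Finset.range n, (1 / 2 : ℝ) ^ i ≤ 2 := by
    have := geom_sum_eq (show (1 / 2 : ℝ) ≠ 1 by norm_num) n
    rw [this]
    have : 0 < (1 / 2 : ℝ) ^ n := by positivity
    rw [div_le_iff_of_neg (by norm_num)]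
    linarith
  have : (0 : ℝ) ≤ X := Nat.cast_nonneg _
  nlinarith

lemma three_le {X Y i : ℕ} (hX : 3 ≤ X) (hY : Y = X / 2 ^ i) (h : Nat.sqrt X < Y) : 3 ≤ Y := by
  by_cases h4 : 4 ≤ X
  · have : 2 ≤ Nat.sqrt X := Nat.le_sqrt.2 (by omega)
    omega
  · have hX3 : X = 3 := by omega
    subst hX3
    have h1 : 1 ≤ Nat.sqrt 3 := Nat.le_sqrt.2 (by norm_num)
    rcases Nat.eq_zero_or_pos i with h0 | h0
    · subst h0; simp at hY; omega
    · exfalso
      have h2 : 2 ≤ 2 ^ i := by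
        calc 2 = 2 ^ 1 := (pow_one 2).symm
          _ ≤ 2 ^ i := Nat.pow_le_pow_right (by norm_num) h0
      have h3 : 3 / 2 ^ i ≤ 3 / 2 := Nat.div_le_div_left h2 (by norm_num)
      have h5 : 3 / 2 = 1 := by norm_num
      omega

lemma log_half {X Y : ℕ} (hX : 3 ≤ X) (h : Nat.sqrt X < Y) : Real.log X / 2 ≤ Real.log Y := by
  have hX0 : (0 : ℝ) < X := by exact_mod_cast (by omega : 0 < X)
  have h1 : X < Y * Y := Nat.sqrt_lt.1 h
  have h2 : (X : ℝ) ≤ (Y : ℝ) ^ 2 := by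
    rw [sq]; exact_mod_cast h1.le
  have h3 := Real.log_le_log hX0 h2
  rw [Real.log_pow] at h3
  push_cast at h3
  linarith

/-- a power of the logarithm against the square root -/
lemma pow_log_le (B : ℕ) {x : ℝ} (hx : 1 ≤ x) :
    Real.log x ^ B ≤ (2 * (B + 1) : ℝ) ^ B * √x := by
  have hx0 : 0 < x := by linarith
  set ε : ℝ := 1 / (2 * (B + 1)) with hε
  have hε0 : 0 < ε := by positivity
  have h1 : Real.log x ≤ x ^ ε / ε := Real.log_le_rpow_div hx0.le hε0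
  have h2 : Real.log x ^ B ≤ (x ^ ε / ε) ^ B := pow_le_pow_left₀ (Real.log_nonneg hx) h1 B
  refine h2.trans ?_
  rw [div_pow, ← Real.rpow_natCast (x ^ ε), ← Real.rpow_mul hx0.le, div_eq_mul_inv, ← inv_pow,
    mul_comm]
  have e : ε⁻¹ = 2 * (B + 1) := by rw [hε, one_div, inv_inv]
  rw [e]
  apply mul_le_mul_of_nonneg_left _ (by positivity)
  rw [Real.sqrt_eq_rpow]
  apply Real.rpow_le_rpow_of_exponent_le hx
  rw [hε, one_div_mul_eq_div, div_le_div_iff₀ (by positivity) (by norm_num)]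
  linarith

lemma exp_bound {c : ℝ} (hc : 0 < c) (k z : ℕ) (hz : 1 ≤ z) :
    (z : ℝ) ^ k * Real.exp (-c * √(z : ℝ)) ≤
      ((2 * (k + 2)).factorial : ℝ) / c ^ (2 * (k + 2)) * (1 / (z : ℝ) ^ 2) := by
  have hz0 : (0 : ℝ) < z := by exact_mod_cast hz
  have h1 := Real.pow_div_factorial_le_exp (c * √(z : ℝ)) (by positivity) (2 * (k + 2))
  have h2 : (c * √(z : ℝ)) ^ (2 * (k + 2)) = c ^ (2 * (k + 2)) * (z : ℝ) ^ (k + 2) := by
    rw [mul_pow, pow_mul √(z : ℝ) 2, Real.sq_sqrt hz0.le]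
  rw [h2] at h1
  rw [neg_mul, Real.exp_neg, ← div_eq_mul_inv, div_le_iff₀ (Real.exp_pos _)]
  have hf : (0 : ℝ) < (2 * (k + 2)).factorial := by exact_mod_cast Nat.factorial_pos _
  calc (z : ℝ) ^ k = ((2 * (k + 2)).factorial : ℝ) / c ^ (2 * (k + 2)) * (1 / (z : ℝ) ^ 2) *
        (c ^ (2 * (k + 2)) * (z : ℝ) ^ (k + 2) / ((2 * (k + 2)).factorial : ℝ)) := by
        rw [pow_add]; field_simp
    _ ≤ _ := by gcongr

lemma sum_inv_sq (Z : ℕ) : ∑ z ∈ Finset.Icc 1 Z, 1 / (z : ℝ) ^ 2 ≤ 2 := by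
  have h : ∀ n : ℕ, ∑ z ∈ Finset.Icc 1 (n + 1), 1 / (z : ℝ) ^ 2 ≤ 2 - 1 / (n + 1 : ℝ) := by
    intro n
    induction n with
    | zero => norm_num
    | succ n ih =>
      rw [Finset.sum_Icc_succ_top (by omega)]
      push_cast
      have e : (1 : ℝ) / ((n : ℝ) + 1 + 1) ^ 2 ≤ 1 / ((n : ℝ) + 1) - 1 / ((n : ℝ) + 1 + 1) := by
        rw [div_sub_div _ _ (by positivity) (by positivity),
          div_le_div_iff₀ (by positivity) (by positivity)]
        nlinarith [(Nat.cast_nonneg n : (0 : ℝ) ≤ n)]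
      linarith
  rcases Nat.eq_zero_or_pos Z with rfl | hZ
  · simp
  · obtain ⟨n, rfl⟩ : ∃ n, Z = n + 1 := ⟨Z - 1, by omega⟩
    have := h n
    have h2 : 0 < 1 / (n + 1 : ℝ) := by positivity
    linarith

variable [Crv]

open scoped Classical in
/-- the exceptional set of one dyadic block -/
noncomputable def blk (Y r : ℕ) : Finset ℤ :=
  (sqZ Y).filter (fun m => Y < 2 * m.natAbs ∧ Van m r)

open scoped Classical in
lemma cover (X r : ℕ) : (sqZ X).filter (fun m => Van m r) ⊆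
    Finset.Icc (-(Nat.sqrt X : ℤ)) (Nat.sqrt X) ∪
      ((Finset.range (Nat.log 2 X + 1)).filter (fun i => Nat.sqrt X < X / 2 ^ i)).biUnion
        (fun i => blk (X / 2 ^ i) r) := by
  intro m hm
  rw [Finset.mem_filter, mem_sqZ] at hm
  obtain ⟨⟨hmX, hsq⟩, hV⟩ := hm
  have hm1 : 0 < m.natAbs := Int.natAbs_pos.2 hsq.ne_zero
  rw [Finset.mem_union]
  by_cases hs : m.natAbs ≤ Nat.sqrt X
  · left
    rw [Finset.mem_Icc]
    omega
  · right
    replace hs := not_le.1 hs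
    have hq : X / m.natAbs ≠ 0 := by
      have := Nat.div_pos hmX hm1
      omega
    set i := Nat.log 2 (X / m.natAbs) with hi
    have h1 : 2 ^ i ≤ X / m.natAbs := Nat.pow_log_le_self 2 hq
    have h2 : X / m.natAbs < 2 ^ (i + 1) := Nat.lt_pow_succ_log_self (by norm_num) _
    have h3 : m.natAbs ≤ X / 2 ^ i := by
      rw [Nat.le_div_iff_mul_le (by positivity)]
      have := (Nat.le_div_iff_mul_le hm1).1 h1
      linarith [mul_comm m.natAbs (2 ^ i)]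
    have h4 : X / 2 ^ i < 2 * m.natAbs := by
      rw [Nat.div_lt_iff_lt_mul (by positivity)]
      have := (Nat.div_lt_iff_lt_mul hm1).1 h2
      rw [pow_succ] at this
      linarith [mul_comm m.natAbs (2 ^ i)]
    rw [Finset.mem_biUnion]
    refine ⟨i, ?_, ?_⟩
    · rw [Finset.mem_filter, Finset.mem_range]
      refine ⟨?_, lt_of_lt_of_le hs h3⟩
      have : i ≤ Nat.log 2 X := Nat.log_mono_right (Nat.div_le_self X _)
      omega
    · unfold blk
      rw [Finset.mem_filter, mem_sqZ]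
      exact ⟨⟨h3, hsq⟩, h4, hV⟩

open scoped Classical in
/-- the count of the exceptional `m` -/
lemma count_m (hB : StBlock) : ∃ c : ℝ, 0 < c ∧ ∀ B : ℕ, ∃ C : ℝ, 0 < C ∧ ∀ X r : ℕ, 3 ≤ X →
    (((sqZ X).filter (fun m => Van m r)).card : ℝ) ≤
      C * X * (Real.exp (-c * √r) + Real.log X ^ (-(B : ℝ))) := by
  obtain ⟨c, hc, h⟩ := hB
  refine ⟨c, hc, fun B => ?_⟩
  obtain ⟨C, hC, h⟩ := h B
  refine ⟨2 * C * 2 ^ B + 3 * (2 * (B + 1) : ℝ) ^ B, by positivity, fun X r hX => ?_⟩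
  have hX1 : (1 : ℝ) ≤ X := by exact_mod_cast (by omega : 1 ≤ X)
  have hX0 : (0 : ℝ) < X := by linarith
  have hL1 : 1 ≤ Real.log X := log_ge_one hX
  have hL0 : 0 < Real.log X := by linarith
  set E := Real.exp (-c * √r) with hE
  have hE0 : 0 < E := Real.exp_pos _
  set l := Real.log X ^ (-(B : ℝ)) with hl
  have hl0 : 0 < l := Real.rpow_pos_of_pos hL0 _
  set I := (Finset.range (Nat.log 2 X + 1)).filter (fun i => Nat.sqrt X < X / 2 ^ i) with hI
  have hsq1 : 1 ≤ Nat.sqrt X := Nat.le_sqrt.2 (by omega)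
  have h1 : (((sqZ X).filter (fun m => Van m r)).card : ℝ) ≤
      3 * Nat.sqrt X + ∑ i ∈ I, ((blk (X / 2 ^ i) r).card : ℝ) := by
    have h2 := Finset.card_le_card (cover X r)
    have h3 := h2.trans (Finset.card_union_le _ _)
    have h4 := Finset.card_biUnion_le (s := I) (t := fun i => blk (X / 2 ^ i) r)
    rw [Int.card_Icc] at h3
    have h5 : ((sqZ X).filter (fun m => Van m r)).card ≤
        3 * Nat.sqrt X + ∑ i ∈ I, (blk (X / 2 ^ i) r).card := by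
      have : ((Nat.sqrt X : ℤ) + 1 - -(Nat.sqrt X : ℤ)).toNat ≤ 3 * Nat.sqrt X := by omega
      exact h3.trans (Nat.add_le_add this h4)
    exact_mod_cast h5
  have h2 : ∀ i ∈ I, ((blk (X / 2 ^ i) r).card : ℝ) ≤
      C * ((X / 2 ^ i : ℕ) : ℝ) * (2 ^ B * (E + l)) := by
    intro i hi
    rw [hI, Finset.mem_filter] at hi
    have h3 := three_le hX rfl hi.2
    refine (h (X / 2 ^ i) r h3).trans ?_
    apply mul_le_mul_of_nonneg_left _ (by positivity)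
    have h4 := log_half hX hi.2
    have h5 : Real.log ((X / 2 ^ i : ℕ) : ℝ) ^ (-(B : ℝ)) ≤ 2 ^ B * l := by
      have e1 : Real.log ((X / 2 ^ i : ℕ) : ℝ) ^ (-(B : ℝ)) ≤ (Real.log X / 2) ^ (-(B : ℝ)) :=
        Real.rpow_le_rpow_of_nonpos (by positivity) h4 (by simp)
      refine e1.trans (le_of_eq ?_)
      rw [Real.div_rpow hL0.le (by norm_num), Real.rpow_neg (by norm_num : (0:ℝ) ≤ 2),
        Real.rpow_natCast, div_inv_eq_mul, mul_comm]
    have h6 : (1 : ℝ) ≤ 2 ^ B := one_le_pow₀ (by norm_num)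
    nlinarith
  have h3 : ∑ i ∈ I, ((blk (X / 2 ^ i) r).card : ℝ) ≤ 2 * C * 2 ^ B * X * (E + l) := by
    refine (Finset.sum_le_sum h2).trans ?_
    rw [← Finset.sum_mul, ← Finset.mul_sum]
    have h4 : ∑ i ∈ I, ((X / 2 ^ i : ℕ) : ℝ) ≤ 2 * X := by
      refine le_trans ?_ (sum_half X (Nat.log 2 X + 1))
      exact Finset.sum_le_sum_of_subset_of_nonneg (Finset.filter_subset _ _)
        fun _ _ _ => Nat.cast_nonneg _
    calc (C * ∑ i ∈ I, ((X / 2 ^ i : ℕ) : ℝ)) * (2 ^ B * (E + l))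
        ≤ (C * (2 * X)) * (2 ^ B * (E + l)) := by gcongr
      _ = _ := by ring
  have h4 : (Nat.sqrt X : ℝ) ≤ (2 * (B + 1) : ℝ) ^ B * X * l := by
    have e1 : (Nat.sqrt X : ℝ) ≤ √(X : ℝ) := Real.nat_sqrt_le_real_sqrt
    have e2 := pow_log_le B hX1
    have e3 : l = (Real.log X ^ B)⁻¹ := by
      rw [hl, Real.rpow_neg hL0.le, Real.rpow_natCast]
    rw [e3, ← div_eq_mul_inv, le_div_iff₀ (by positivity)]
    have hs : √(X : ℝ) * √(X : ℝ) = X := Real.mul_self_sqrt hX0.le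
    calc (Nat.sqrt X : ℝ) * Real.log X ^ B ≤ √(X : ℝ) * ((2 * (B + 1) : ℝ) ^ B * √(X : ℝ)) := by
          gcongr
      _ = (2 * (B + 1) : ℝ) ^ B * X := by rw [mul_left_comm, hs]
  have h5 : 0 ≤ (2 * (B + 1) : ℝ) ^ B * X * E := by positivity
  calc (((sqZ X).filter (fun m => Van m r)).card : ℝ)
      ≤ 3 * ((2 * (B + 1) : ℝ) ^ B * X * l) + 2 * C * 2 ^ B * X * (E + l) :=
        h1.trans (add_le_add (by linarith) h3)
    _ ≤ _ := by
      have : (2 * C * 2 ^ B + 3 * (2 * (B + 1) : ℝ) ^ B) * X * (E + l) =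
        3 * ((2 * (B + 1) : ℝ) ^ B * X * l) + 2 * C * 2 ^ B * X * (E + l) +
          3 * ((2 * (B + 1) : ℝ) ^ B * X * E) := by ring
      linarith

/-- the tail bound for `a` -/
def Tail (a : ℤ → ℕ) : Prop :=
  ∃ c : ℝ, 0 < c ∧ ∀ B : ℕ, ∃ C : ℝ, 0 < C ∧ ∀ X : ℕ, 3 ≤ X → ∀ z : ℝ, 0 ≤ z →
    ((((sqZ X).filter (fun m => m ≠ 1)).filter (fun m => z ≤ (a m : ℝ))).card : ℝ) ≤
      C * X * (Real.exp (-c * √z) + Real.log X ^ (-(B : ℝ)))

theorem tail (hB : StBlock) {a : ℤ → ℕ}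
    (ha : ∀ m : ℤ, Squarefree m → m ≠ 1 → Van m (a m)) : Tail a := by
  classical
  obtain ⟨c, hc, h⟩ := count_m hB
  refine ⟨c, hc, fun B => ?_⟩
  obtain ⟨C, hC, h⟩ := h B
  refine ⟨C, hC, fun X hX z hz => ?_⟩
  have hL1 : 1 ≤ Real.log X := log_ge_one hX
  have hL0 : 0 < Real.log X := by linarith
  have h1 := h X ⌈z⌉₊ hX
  have hsub : ((sqZ X).filter (fun m => m ≠ 1)).filter (fun m => z ≤ (a m : ℝ)) ⊆
      (sqZ X).filter (fun m => Van m ⌈z⌉₊) := by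
    intro m hm
    rw [Finset.mem_filter, Finset.mem_filter] at hm
    rw [Finset.mem_filter]
    refine ⟨hm.1.1, ?_⟩
    have hV := ha m (mem_sqZ.1 hm.1.1).2 hm.1.2
    exact fun i hi => hV i (lt_of_lt_of_le hi (Nat.ceil_le.2 hm.2))
  have h2 : ((((sqZ X).filter (fun m => m ≠ 1)).filter (fun m => z ≤ (a m : ℝ))).card : ℝ) ≤
      (((sqZ X).filter (fun m => Van m ⌈z⌉₊)).card : ℝ) := by
    exact_mod_cast Finset.card_le_card hsub
  have hE : Real.exp (-c * √(⌈z⌉₊ : ℝ)) ≤ Real.exp (-c * √z) := by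
    apply Real.exp_le_exp.2
    have : √z ≤ √(⌈z⌉₊ : ℝ) := Real.sqrt_le_sqrt (Nat.le_ceil z)
    nlinarith
  have hl0 : 0 < Real.log X ^ (-(B : ℝ)) := Real.rpow_pos_of_pos hL0 _
  calc ((((sqZ X).filter (fun m => m ≠ 1)).filter (fun m => z ≤ (a m : ℝ))).card : ℝ)
      ≤ (((sqZ X).filter (fun m => Van m ⌈z⌉₊)).card : ℝ) := h2
    _ ≤ C * X * (Real.exp (-c * √(⌈z⌉₊ : ℝ)) + Real.log X ^ (-(B : ℝ))) := h1
    _ ≤ C * X * (Real.exp (-c * √z) + Real.log X ^ (-(B : ℝ))) := by gcongr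

omit [Crv] in
lemma card_sqZ_le (X : ℕ) (hX : 3 ≤ X) : ((sqZ X).card : ℝ) ≤ 3 * X := by
  classical
  have h1 : (sqZ X).card ≤ 3 * X := by
    unfold sqZ
    refine (Finset.card_filter_le _ _).trans ?_
    rw [Int.card_Icc]
    omega
  exact_mod_cast h1

/-- the moments -/
theorem moments {a : ℤ → ℕ} (hTl : Tail a)
    (hTr : ∃ C : ℝ, ∀ m : ℤ, Squarefree m → m ≠ 1 → (a m : ℝ) ≤ C * Real.log (3 * |(m : ℝ)|)) :
    ∀ k : ℕ, ∃ C : ℝ, 0 < C ∧ ∀ X : ℕ, 3 ≤ X →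
    ∑ m ∈ (sqZ X).filter (fun m => m ≠ 1), (a m : ℝ) ^ k ≤ C * X := by
  classical
  obtain ⟨K0, htriv0⟩ := hTr
  obtain ⟨c, hc, htail⟩ := hTl
  intro k
  obtain ⟨C, hC, htail⟩ := htail (k + 1)
  set K : ℝ := 2 * |K0| + 1 with hK
  have hKpos : 0 < K := by positivity
  set F : ℝ := ((2 * (k + 2)).factorial : ℝ) / c ^ (2 * (k + 2)) with hF
  have hF0 : 0 < F := by
    have : (0 : ℝ) < (2 * (k + 2)).factorial := by exact_mod_cast Nat.factorial_pos _
    positivity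
  refine ⟨3 + C * (2 * F) + C * K ^ (k + 1), by positivity, fun X hX => ?_⟩
  have hL1 : 1 ≤ Real.log X := log_ge_one hX
  have hL0 : 0 < Real.log X := by linarith
  have htl := htail X hX
  set L := Real.log X with hL
  set N : ℝ := (X : ℝ) with hN
  have hN0 : 0 ≤ N := Nat.cast_nonneg _
  have hN3 : (3 : ℝ) ≤ N := by rw [hN]; exact_mod_cast hX
  set S := (sqZ X).filter (fun m => m ≠ 1) with hS
  have hcardS : (S.card : ℝ) ≤ 3 * N := by
    refine le_trans ?_ (card_sqZ_le X hX)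
    exact_mod_cast Finset.card_filter_le _ _
  have htriv : ∀ m ∈ S, (a m : ℝ) ≤ K * L := by
    intro m hm
    rw [hS, Finset.mem_filter, mem_sqZ] at hm
    obtain ⟨⟨hmX, hsq⟩, hm1⟩ := hm
    have h1 := htriv0 m hsq hm1
    have hm0 : (1 : ℝ) ≤ |(m : ℝ)| := by
      have : 1 ≤ m.natAbs := Int.natAbs_pos.2 hsq.ne_zero
      rw [← Int.cast_abs, Int.abs_eq_natAbs]
      exact_mod_cast this
    have hmX' : |(m : ℝ)| ≤ N := by
      rw [← Int.cast_abs, Int.abs_eq_natAbs, hN]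
      exact_mod_cast hmX
    have h2 : Real.log (3 * |(m : ℝ)|) ≤ 2 * L := by
      have h3 : Real.log (3 * |(m : ℝ)|) ≤ Real.log (N * N) := by
        apply Real.log_le_log (by positivity)
        nlinarith
      rw [Real.log_mul (x := N) (y := N) (by positivity) (by positivity)] at h3
      linarith
    have h4 : 0 ≤ Real.log (3 * |(m : ℝ)|) := Real.log_nonneg (by linarith)
    calc (a m : ℝ) ≤ K0 * Real.log (3 * |(m : ℝ)|) := h1
      _ ≤ |K0| * Real.log (3 * |(m : ℝ)|) := by gcongr; exact le_abs_self K0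
      _ ≤ |K0| * (2 * L) := by gcongr
      _ ≤ K * L := by rw [hK]; nlinarith
  set Z := ⌊K * L⌋₊ with hZ
  have hZle : (Z : ℝ) ≤ K * L := Nat.floor_le (by positivity)
  -- pointwise bound
  have h1 : ∀ D ∈ S, (a D : ℝ) ^ k ≤
      1 + ∑ z ∈ Finset.Icc 1 Z, if (z : ℝ) ≤ (a D : ℝ) then (z : ℝ) ^ k else 0 := by
    intro D hD
    have h2 := htriv D hD
    have hnn : ∀ z ∈ Finset.Icc 1 Z,
        (0 : ℝ) ≤ if (z : ℝ) ≤ (a D : ℝ) then (z : ℝ) ^ k else 0 := by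
      intro z _
      split_ifs <;> positivity
    rcases Nat.eq_zero_or_pos (a D) with h0 | h0
    · rw [h0]
      have h3 : ((0 : ℕ) : ℝ) ^ k ≤ 1 := by
        rcases Nat.eq_zero_or_pos k with hk | hk
        · rw [hk, pow_zero]
        · rw [Nat.cast_zero, zero_pow (by omega)]; norm_num
      have h4 := Finset.sum_nonneg hnn
      rw [h0] at h4
      linarith
    · have hmem : a D ∈ Finset.Icc 1 Z := by
        rw [Finset.mem_Icc]
        exact ⟨h0, Nat.le_floor h2⟩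
      have h3 := Finset.single_le_sum hnn hmem
      rw [if_pos le_rfl] at h3
      linarith
  -- the sum
  have h2 : ∑ D ∈ S, (a D : ℝ) ^ k ≤ 3 * N + ∑ z ∈ Finset.Icc 1 Z,
      ((S.filter (fun D => (z : ℝ) ≤ (a D : ℝ))).card : ℝ) * (z : ℝ) ^ k := by
    refine (Finset.sum_le_sum h1).trans ?_
    rw [Finset.sum_add_distrib, Finset.sum_const, nsmul_eq_mul, mul_one, Finset.sum_comm]
    refine add_le_add hcardS (le_of_eq ?_)
    refine Finset.sum_congr rfl fun z _ => ?_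
    rw [← Finset.sum_filter, Finset.sum_const, nsmul_eq_mul]
  have h3 : ∀ z ∈ Finset.Icc 1 Z,
      ((S.filter (fun D => (z : ℝ) ≤ (a D : ℝ))).card : ℝ) * (z : ℝ) ^ k ≤
      C * N * (F * (1 / (z : ℝ) ^ 2)) + C * N * ((K * L) ^ k * L ^ (-((k + 1 : ℕ) : ℝ))) := by
    intro z hz
    rw [Finset.mem_Icc] at hz
    have hz0 : (0 : ℝ) ≤ z := Nat.cast_nonneg _
    have e1 := htl z hz0
    have e2 := exp_bound hc k z hz.1
    have e3 : (z : ℝ) ^ k ≤ (K * L) ^ k := by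
      apply pow_le_pow_left₀ hz0
      have : (z : ℝ) ≤ Z := by exact_mod_cast hz.2
      linarith
    have hl0 : 0 < L ^ (-((k + 1 : ℕ) : ℝ)) := Real.rpow_pos_of_pos hL0 _
    calc ((S.filter (fun D => (z : ℝ) ≤ (a D : ℝ))).card : ℝ) * (z : ℝ) ^ k
        ≤ C * N * (Real.exp (-c * √(z : ℝ)) + L ^ (-((k + 1 : ℕ) : ℝ))) * (z : ℝ) ^ k := by
          gcongr
      _ = C * N * ((z : ℝ) ^ k * Real.exp (-c * √(z : ℝ))) +
          C * N * ((z : ℝ) ^ k * L ^ (-((k + 1 : ℕ) : ℝ))) := by ring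
      _ ≤ _ := by gcongr
  have h4 : ∑ z ∈ Finset.Icc 1 Z,
      (C * N * (F * (1 / (z : ℝ) ^ 2)) + C * N * ((K * L) ^ k * L ^ (-((k + 1 : ℕ) : ℝ)))) ≤
      C * N * (2 * F) + C * N * K ^ (k + 1) := by
    rw [Finset.sum_add_distrib, ← Finset.mul_sum, ← Finset.mul_sum, Finset.sum_const, Nat.card_Icc,
      nsmul_eq_mul, Nat.add_sub_cancel]
    have e1 := sum_inv_sq Z
    have e2 : (Z : ℝ) * (C * N * ((K * L) ^ k * L ^ (-((k + 1 : ℕ) : ℝ)))) ≤
        C * N * K ^ (k + 1) := by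
      have e3 : L ^ (-((k + 1 : ℕ) : ℝ)) = (L ^ (k + 1))⁻¹ := by
        rw [Real.rpow_neg hL0.le, Real.rpow_natCast]
      calc (Z : ℝ) * (C * N * ((K * L) ^ k * L ^ (-((k + 1 : ℕ) : ℝ))))
          ≤ (K * L) * (C * N * ((K * L) ^ k * L ^ (-((k + 1 : ℕ) : ℝ)))) := by gcongr
        _ = C * N * K ^ (k + 1) := by
            rw [e3, mul_pow, pow_succ L, pow_succ K]
            field_simp
    have e4 : C * N * (F * ∑ z ∈ Finset.Icc 1 Z, 1 / (z : ℝ) ^ 2) ≤ C * N * (2 * F) := by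
      have : F * ∑ z ∈ Finset.Icc 1 Z, 1 / (z : ℝ) ^ 2 ≤ 2 * F := by nlinarith
      exact mul_le_mul_of_nonneg_left this (by positivity)
    linarith
  have h5 := (Finset.sum_le_sum h3).trans h4
  calc ∑ D ∈ S, (a D : ℝ) ^ k ≤ 3 * N + (C * N * (2 * F) + C * N * K ^ (k + 1)) :=
        h2.trans (by linarith)
    _ = _ := by ring

end Mom

variable [Crv]

/-- Module I3 -/
theorem pfMom (hB : StBlock) : StMom := by
  intro a ha hb
  have hT := Mom.tail hB ha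
  refine ⟨?_, Mom.moments hT hb⟩
  obtain ⟨c, hc, h⟩ := hT
  refine ⟨c, hc, fun B => ?_⟩
  obtain ⟨C, hC, h⟩ := h B
  refine ⟨C, hC, fun X hX z hz => ?_⟩
  have h1 := h X hX z hz
  rwa [Finset.filter_filter] at h1

end P004G
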