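import Vale.Agent.P004G.H175.ZR
import Vale.Agent.P004G.H871.Rank

/-!
# P004G, package G8 (d): `StVan1`
-/

open Real MeasureTheory Set Filter
open scoped ENNReal Topology

namespace P004G
namespace Z

variable {A : ℕ → ℤ} {q κ : ℝ}

/-- a dilation of a function with vanishing logarithmic moments -/
lemma dil_zero {f : ℝ → ℝ} (hf : RD f) {r : ℕ}
    (hV : ∀ i < r, ∫ u in Ioi (0 : ℝ), f u * Real.log u ^ i = 0)
    {a : ℝ} (ha : 0 < a) (P : Polynomial ℝ) (hP : P.degree < r) :
    ∫ u in Ioi (0 : ℝ), f (a * u) * P.eval (Real.log u) = 0 := by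
  set P' : Polynomial ℝ := P.comp (Polynomial.X + Polynomial.C (Real.log a⁻¹)) with hP'
  have hdeg : P'.degree < r := by
    by_cases h0 : P = 0
    · rw [hP', h0, Polynomial.zero_comp, Polynomial.degree_zero]
      exact WithBot.bot_lt_coe r
    · have h1 : P.natDegree < r := (Polynomial.natDegree_lt_iff_degree_lt h0).2 hP
      have h2 : P'.natDegree ≤ P.natDegree := by
        refine Polynomial.natDegree_comp_le.trans ?_
        rw [Polynomial.natDegree_X_add_C, mul_one]
      refine lt_of_le_of_lt Polynomial.degree_le_natDegree ?_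
      exact_mod_cast lt_of_le_of_lt h2 h1
  have h0 := hf.poly_zero hV P' hdeg
  have h1 := integral_comp_mul_left_Ioi (fun v => f v * P.eval (Real.log (a⁻¹ * v))) 0 ha
  rw [mul_zero] at h1
  have h2 : ∫ v in Ioi (0 : ℝ), f v * P.eval (Real.log (a⁻¹ * v)) = 0 := by
    refine Eq.trans ?_ h0
    refine setIntegral_congr_fun measurableSet_Ioi fun v hv => ?_
    have hv0 : (0 : ℝ) < v := hv
    simp only [hP', Polynomial.eval_comp, Polynomial.eval_add, Polynomial.eval_X,
      Polynomial.eval_C]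
    rw [Real.log_mul (inv_pos.2 ha).ne' hv0.ne', add_comm]
  rw [h2, smul_zero] at h1
  refine Eq.trans ?_ h1
  refine setIntegral_congr_fun measurableSet_Ioi fun u hu => ?_
  show f (a * u) * P.eval (Real.log u) = f (a * u) * P.eval (Real.log (a⁻¹ * (a * u)))
  rw [← mul_assoc, inv_mul_cancel₀ ha.ne', one_mul]

lemma iter_PhiA (hA : LD A) (hF : FEq A q κ) (i : ℕ) : iteratedDeriv i (Rk.PhiA A) 1 =
      ((∫ u in Ioi (0 : ℝ), TH A u * Real.log u ^ i : ℝ) : ℂ) := by
  have h1 : Rk.PhiA A = mellin (fun u : ℝ => ((TH A u : ℝ) : ℂ)) := rfl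
  rw [h1, P004.Vanish.mellin_iter (TH_RD hA hF).rapid, mellin, ← integral_complex_ofReal]
  refine setIntegral_congr_fun measurableSet_Ioi fun u _ => ?_
  simp only [sub_self, Complex.cpow_zero, one_smul, Complex.real_smul]
  push_cast
  ring

lemma TH_van (hA : LD A) (hF : FEq A q κ) {L : ℂ → ℂ} (hL : IsL A L) (i : ℕ)
    (hi : i < analyticOrderNatAt L 1) : ∫ u in Ioi (0 : ℝ), TH A u * Real.log u ^ i = 0 := by
  have h0 := Rk.order_eq hA hF hL
  have ha : ((analyticOrderNatAt L 1 : ℕ) : ℕ∞) ≤ analyticOrderAt (Rk.PhiA A) 1 := by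
    rw [← h0]
    unfold analyticOrderNatAt
    exact ENat.natCast_toNat_le_self _
  have h1 := (natCast_le_analyticOrderAt_iff_iteratedDeriv_eq_zero
    ((Rk.PhiA_diff hA hF).analyticAt 1)).1 ha i hi
  rw [iter_PhiA hA hF] at h1
  exact_mod_cast h1

end Z

variable [Crv]

open Z in
/-- Module Z3 -/
theorem pfVan1 : StVan1 := by
  intro m A q κ L hA hF hL hm i hi
  have h1 : ∀ u ∈ Ioi (0 : ℝ), theta m u * Real.log u ^ i =
      ∑ k ∈ (K0 bd).divisors, (ee bd A k : ℝ) * (TH A (k * u) * Real.log u ^ i) := by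
    intro u hu
    rw [theta_eq_TH hA hm hu, Finset.sum_mul]
    exact Finset.sum_congr rfl fun k _ => by ring
  have hX : (Polynomial.X ^ i : Polynomial ℝ).degree < (analyticOrderNatAt L 1 : ℕ) := by
    rw [Polynomial.degree_X_pow]
    exact_mod_cast hi
  rw [setIntegral_congr_fun measurableSet_Ioi h1, integral_finsetSum]
  · refine Finset.sum_eq_zero fun k hk => ?_
    have hk0 : (0 : ℝ) < k := by exact_mod_cast Nat.pos_of_mem_divisors hk
    rw [integral_const_mul]
    have h2 := dil_zero (TH_RD hA hF) (TH_van hA hF hL) hk0 (Polynomial.X ^ i) hX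
    simp only [Polynomial.eval_pow, Polynomial.eval_X] at h2
    rw [h2, mul_zero]
  · intro k hk
    have hk0 : (0 : ℝ) < k := by exact_mod_cast Nat.pos_of_mem_divisors hk
    exact (((TH_RD hA hF).dil hk0).integrable_log i).const_mul _

end P004G
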