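import Vale.Agent.P004G.LIface

/-!
# P004G, package G10, part 0: coefficients of an Euler product of degree two

* `pfLbound : StLbound`;
* the decompositions `c = e * A` and `A = s * c` (Dirichlet convolution), where `c` is the part of
  `A` prime to `S`, `e` is supported on the divisors of `∏_{p ∣ S} p²` and `s` is the part of `A`
  supported on numbers with all prime factors dividing `S`.
-/

open Real MeasureTheory Set
open scoped ENNReal

namespace P004G
namespace Z

/-! ### the bound for the coefficients -/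

lemma rec_bound {p a : ℝ} (ha : a ^ 2 ≤ 4 * p) (x : ℕ → ℝ) (h0 : x 0 = 1)
    (h1 : x 1 = a) (hr : ∀ k, x (k + 2) = a * x (k + 1) - p * x k) (k : ℕ) :
    |x k| ≤ (k + 1) * √p ^ k := by
  have hd : 0 ≤ p - a ^ 2 / 4 := by linarith
  have hp : 0 ≤ p := by nlinarith [sq_nonneg a]
  set α : ℂ := ⟨a / 2, √(p - a ^ 2 / 4)⟩ with hα
  set β : ℂ := ⟨a / 2, -√(p - a ^ 2 / 4)⟩ with hβ
  have hs := Real.mul_self_sqrt hd
  have hsum : α + β = a := by
    apply Complex.ext <;> simp [hα, hβ]
  have hprod : α * β = p := by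
    apply Complex.ext
    · simp [hα, hβ]
      nlinarith
    · simp [hα, hβ]
      ring
  have hnα : ‖α‖ = √p := by
    rw [Complex.norm_def, Complex.normSq_apply]
    congr 1
    simp [hα]
    nlinarith
  have hnβ : ‖β‖ = √p := by
    rw [Complex.norm_def, Complex.normSq_apply]
    congr 1
    simp [hβ]
    nlinarith
  have key : ∀ k, ((x (k + 1) : ℝ) : ℂ) - β * (x k : ℝ) = α ^ (k + 1) := by
    intro k
    induction k with
    | zero =>
      rw [h0, zero_add, h1, ← hsum]
      simp
    | succ k ih =>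
      rw [hr k]
      push_cast
      rw [← hsum, ← hprod, pow_succ, ← ih]
      ring
  induction k with
  | zero => simp [h0]
  | succ k ih =>
    have h2 : ((x (k + 1) : ℝ) : ℂ) = β * (x k : ℝ) + α ^ (k + 1) := by
      rw [← key k]; ring
    have h3 : |x (k + 1)| = ‖((x (k + 1) : ℝ) : ℂ)‖ := by
      rw [Complex.norm_real, Real.norm_eq_abs]
    rw [h3, h2]
    calc ‖β * (x k : ℝ) + α ^ (k + 1)‖ ≤ ‖β * (x k : ℝ)‖ + ‖α ^ (k + 1)‖ := norm_add_le _ _
      _ = √p * |x k| + √p ^ (k + 1) := by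
        rw [norm_mul, hnβ, norm_pow, hnα, Complex.norm_real, Real.norm_eq_abs]
      _ ≤ √p * ((k + 1) * √p ^ k) + √p ^ (k + 1) := by
        gcongr
      _ = _ := by push_cast; ring

variable {A : ℕ → ℤ}

/-- the coefficient of `p^{-2s}` in the inverse Euler factor: `p` or `0` -/
def Dl (A : ℕ → ℤ) (p : ℕ) : ℤ := A p ^ 2 - A (p ^ 2)

lemma Dl_eq (hA : LD A) {p : ℕ} (hp : p.Prime) :
    (Dl A p = p ∧ (A p) ^ 2 ≤ 4 * p) ∨ (Dl A p = 0 ∧ |A p| ≤ 1) := by
  unfold Dl
  rcases hA.loc p hp with ⟨h1, h2⟩ | ⟨h1, h2⟩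
  · left
    have := h1 0
    simp only [zero_add, pow_one, pow_zero, hA.one] at this
    exact ⟨by rw [this]; ring, h2⟩
  · right
    have h3 : A (p ^ 2) = A p * A p := by simpa using h1 1
    exact ⟨by rw [h3]; ring, h2⟩

lemma rec (hA : LD A) {p : ℕ} (hp : p.Prime) (k : ℕ) :
    A (p ^ (k + 2)) = A p * A (p ^ (k + 1)) - Dl A p * A (p ^ k) := by
  rcases hA.loc p hp with ⟨h1, h2⟩ | ⟨h1, h2⟩
  · have := h1 0
    simp only [zero_add, pow_one, pow_zero, hA.one] at this
    have hD : Dl A p = p := by unfold Dl; rw [this]; ring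
    rw [hD]; exact h1 k
  · have h3 : A (p ^ 2) = A p * A p := by simpa using h1 1
    have hD : Dl A p = 0 := by unfold Dl; rw [h3]; ring
    rw [hD, h1 (k + 1)]; ring

lemma pp_bound (hA : LD A) {p : ℕ} (hp : p.Prime) (k : ℕ) :
    |(A (p ^ k) : ℝ)| ≤ (k + 1) * √(p : ℝ) ^ k := by
  rcases hA.loc p hp with ⟨h1, h2⟩ | ⟨h1, h2⟩
  · refine rec_bound (p := (p : ℝ)) (a := (A p : ℝ)) (by exact_mod_cast h2)
      (fun k => (A (p ^ k) : ℝ)) (by simp [hA.one]) (by simp) (fun k => ?_) k
    rw [h1 k]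
    push_cast
    ring
  · have h3 : ∀ k, |(A (p ^ k) : ℝ)| ≤ 1 := by
      intro k
      induction k with
      | zero => simp [hA.one]
      | succ k ih =>
        rw [h1 k]
        push_cast
        rw [abs_mul]
        have h2' : |(A p : ℝ)| ≤ 1 := by exact_mod_cast h2
        calc |(A p : ℝ)| * |(A (p ^ k) : ℝ)| ≤ 1 * 1 := by gcongr
          _ = 1 := one_mul 1
    have h4 : (1 : ℝ) ≤ √(p : ℝ) := by
      rw [Real.one_le_sqrt]
      exact_mod_cast hp.one_lt.le
    calc |(A (p ^ k) : ℝ)| ≤ 1 * 1 := by rw [one_mul]; exact h3 k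
      _ ≤ (k + 1) * √(p : ℝ) ^ k := by
        gcongr
        · linarith [(Nat.cast_nonneg k : (0 : ℝ) ≤ k)]
        · exact one_le_pow₀ h4

end Z

theorem pfLbound : StLbound := by
  intro A hA n
  induction n using Nat.recOnPosPrimePosCoprime with
  | prime_pow p k hp hk =>
    refine (Z.pp_bound hA hp k).trans (le_of_eq ?_)
    have h1 : dv (p ^ k) = k + 1 := by
      unfold P004.dv
      rw [Nat.divisors_prime_pow hp, Finset.card_map, Finset.card_range]
      push_cast; ring
    have h2 : √((p ^ k : ℕ) : ℝ) = √(p : ℝ) ^ k := by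
      push_cast
      rw [Real.sqrt_eq_rpow, Real.sqrt_eq_rpow, ← Real.rpow_natCast, ← Real.rpow_natCast,
        ← Real.rpow_mul (by positivity), ← Real.rpow_mul (by positivity), mul_comm]
    rw [h1, h2]
  | zero => rw [hA.zero]; simp
  | one => rw [hA.one]; simp [P004.dv]
  | coprime a b ha hb hab iha ihb =>
    rw [hA.mul a b hab]
    have h1 : dv (a * b) = dv a * dv b := by
      unfold P004.dv
      rw [hab.card_divisors_mul]
      push_cast; ring
    rw [h1]
    push_cast
    rw [abs_mul, Real.sqrt_mul (by positivity)]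
    calc |(A a : ℝ)| * |(A b : ℝ)| ≤ (dv a * √(a : ℝ)) * (dv b * √(b : ℝ)) :=
          mul_le_mul iha ihb (abs_nonneg _) (by unfold P004.dv; positivity)
      _ = _ := by ring

namespace Z

variable {A : ℕ → ℤ}

/-! ### Dirichlet convolutions -/

lemma mul_pp {R : Type*} [CommSemiring R] (f g : ArithmeticFunction R) {p : ℕ} (hp : p.Prime)
    (k : ℕ) :
    (f * g) (p ^ k) = ∑ i ∈ Finset.range (k + 1), f (p ^ i) * g (p ^ (k - i)) := by
  rw [ArithmeticFunction.mul_apply, Nat.sum_divisorsAntidiagonal (fun a b => f a * g b),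
    Nat.sum_divisors_prime_pow hp]
  refine Finset.sum_congr rfl fun i hi => ?_
  rw [Nat.pow_div (by simpa using Nat.lt_succ_iff.1 (Finset.mem_range.1 hi)) hp.pos]

/-- a multiplicative function with prescribed values at prime powers -/
def mf (g : ℕ → ℕ → ℤ) : ArithmeticFunction ℤ :=
  ⟨fun n => if n = 0 then 0 else n.factorization.prod g, by simp⟩

lemma mf_apply (g : ℕ → ℕ → ℤ) {n : ℕ} (hn : n ≠ 0) : mf g n = n.factorization.prod g := by
  show (if n = 0 then 0 else n.factorization.prod g) = _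
  rw [if_neg hn]

lemma mf_mult (g : ℕ → ℕ → ℤ) : (mf g).IsMultiplicative := by
  refine ⟨?_, ?_⟩
  · rw [mf_apply g one_ne_zero]; simp
  · intro m n h
    rcases eq_or_ne m 0 with rfl | hm
    · simp
    rcases eq_or_ne n 0 with rfl | hn
    · simp
    rw [mf_apply g hm, mf_apply g hn, mf_apply g (mul_ne_zero hm hn),
      Nat.factorization_mul_of_coprime h]
    exact Finsupp.prod_add_index_of_disjoint h.disjoint_primeFactors g

lemma mf_pp (g : ℕ → ℕ → ℤ) {p : ℕ} (hp : p.Prime) {k : ℕ} (hk : k ≠ 0) :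
    mf g (p ^ k) = g p k := by
  rw [mf_apply g (pow_ne_zero k hp.ne_zero), hp.factorization_pow]
  unfold Finsupp.prod
  rw [Finsupp.support_single p hk]
  simp

/-- the local coefficients of the inverse Euler factors at the primes dividing `S` -/
def gl (S : ℕ) (A : ℕ → ℤ) (p k : ℕ) : ℤ :=
  if ¬ p ∣ S then 0 else if k = 1 then -A p else if k = 2 then Dl A p else 0

/-- the coefficients of the product of the inverse Euler factors at the primes dividing `S` -/
def ee (S : ℕ) (A : ℕ → ℤ) : ArithmeticFunction ℤ := mf (gl S A)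

/-- `A` as an arithmetic function -/
def af (A : ℕ → ℤ) (hA : LD A) : ArithmeticFunction ℤ := ⟨A, hA.zero⟩

lemma af_mult (hA : LD A) : (af A hA).IsMultiplicative := ⟨hA.one, fun {m n} h => hA.mul m n h⟩

open scoped Classical in
/-- the part of `A` prime to `S` -/
noncomputable def cf (S : ℕ) (A : ℕ → ℤ) : ArithmeticFunction ℤ :=
  ⟨fun n => if n ≠ 0 ∧ n.Coprime S then A n else 0, by simp⟩

lemma cf_apply (S : ℕ) (A : ℕ → ℤ) {n : ℕ} (hn : n ≠ 0) (h : n.Coprime S) : cf S A n = A n := by
  show (if _ then _ else _) = _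
  rw [if_pos ⟨hn, h⟩]

lemma cf_apply' (S : ℕ) (A : ℕ → ℤ) {n : ℕ} (h : ¬ n.Coprime S) : cf S A n = 0 := by
  show (if _ then _ else _) = _
  rw [if_neg (fun h1 => h h1.2)]

lemma cf_mult (S : ℕ) (hA : LD A) : (cf S A).IsMultiplicative := by
  refine ⟨?_, ?_⟩
  · rw [cf_apply S A one_ne_zero (Nat.coprime_one_left _), hA.one]
  · intro m n h
    rcases eq_or_ne m 0 with rfl | hm
    · simp
    rcases eq_or_ne n 0 with rfl | hn
    · simp
    by_cases h1 : m.Coprime S
    · by_cases h2 : n.Coprime S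
      · rw [cf_apply S A hm h1, cf_apply S A hn h2,
          cf_apply S A (mul_ne_zero hm hn) (Nat.Coprime.mul_left h1 h2), hA.mul m n h]
      · rw [cf_apply' S A h2, mul_zero, cf_apply' S A]
        intro h3
        exact h2 (Nat.Coprime.coprime_mul_left h3)
    · rw [cf_apply' S A h1, zero_mul, cf_apply' S A]
      intro h3
      exact h1 (Nat.Coprime.coprime_mul_right h3)

open scoped Classical in
/-- the part of `A` supported on the numbers whose prime factors divide `S` -/
noncomputable def sf (S : ℕ) (A : ℕ → ℤ) : ArithmeticFunction ℤ :=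
  ⟨fun n => if n ≠ 0 ∧ n.primeFactors ⊆ S.primeFactors then A n else 0, by simp⟩

lemma sf_apply (S : ℕ) (A : ℕ → ℤ) {n : ℕ} (hn : n ≠ 0) (h : n.primeFactors ⊆ S.primeFactors) :
    sf S A n = A n := by
  show (if _ then _ else _) = _
  rw [if_pos ⟨hn, h⟩]

lemma sf_apply' (S : ℕ) (A : ℕ → ℤ) {n : ℕ} (h : ¬ n.primeFactors ⊆ S.primeFactors) :
    sf S A n = 0 := by
  show (if _ then _ else _) = _
  rw [if_neg (fun h1 => h h1.2)]

lemma sf_mult (S : ℕ) (hA : LD A) : (sf S A).IsMultiplicative := by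
  refine ⟨?_, ?_⟩
  · rw [sf_apply S A one_ne_zero (by simp), hA.one]
  · intro m n h
    rcases eq_or_ne m 0 with rfl | hm
    · simp
    rcases eq_or_ne n 0 with rfl | hn
    · simp
    have h3 : (m * n).primeFactors = m.primeFactors ∪ n.primeFactors := Nat.primeFactors_mul hm hn
    by_cases h1 : m.primeFactors ⊆ S.primeFactors
    · by_cases h2 : n.primeFactors ⊆ S.primeFactors
      · rw [sf_apply S A hm h1, sf_apply S A hn h2,
          sf_apply S A (mul_ne_zero hm hn) (by rw [h3]; exact Finset.union_subset h1 h2),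
          hA.mul m n h]
      · rw [sf_apply' S A h2, mul_zero, sf_apply' S A]
        intro h4
        rw [h3] at h4
        exact h2 (Finset.union_subset_right h4)
    · rw [sf_apply' S A h1, zero_mul, sf_apply' S A]
      intro h4
      rw [h3] at h4
      exact h1 (Finset.union_subset_left h4)

lemma gl_of_not {S p : ℕ} (h : ¬ p ∣ S) (k : ℕ) : gl S A p k = 0 := by
  unfold gl; rw [if_pos h]

lemma not_coprime {S p k : ℕ} (hp : p.Prime) (h : p ∣ S) : ¬ (p ^ (k + 1)).Coprime S := by
  intro h1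
  exact hp.one_lt.ne' (Nat.eq_one_of_dvd_coprimes h1 (dvd_pow_self p (Nat.succ_ne_zero k)) h)

lemma ee_mul (S : ℕ) (hA : LD A) : ee S A * af A hA = cf S A := by
  rw [ArithmeticFunction.IsMultiplicative.eq_iff_eq_on_prime_powers _
    ((show (ee S A).IsMultiplicative from mf_mult _).mul (af_mult hA)) _ (cf_mult S hA)]
  intro p k hp
  rw [mul_pp _ _ hp]
  have he0 : ee S A (p ^ 0) = 1 := by rw [pow_zero]; exact (mf_mult _).1
  have he : ∀ k, k ≠ 0 → ee S A (p ^ k) = gl S A p k := fun k hk => mf_pp _ hp hk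
  have ha : ∀ n, af A hA n = A n := fun _ => rfl
  by_cases hpS : p ∣ S
  · have g1 : gl S A p 1 = -A p := by unfold gl; simp [hpS]
    have g2 : gl S A p 2 = Dl A p := by unfold gl; simp [hpS]
    have g3 : ∀ k, 3 ≤ k → gl S A p k = 0 := by
      intro k hk
      unfold gl
      rw [if_neg (by simpa using hpS), if_neg (by omega), if_neg (by omega)]
    rcases k with _ | k
    · rw [zero_add, Finset.range_one, Finset.sum_singleton, he0, one_mul, Nat.sub_self, pow_zero,
        cf_apply S A one_ne_zero (Nat.coprime_one_left _)]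
      rfl
    · rw [cf_apply' S A (not_coprime hp hpS)]
      rcases k with _ | k
      · rw [Finset.sum_range_succ, Finset.sum_range_succ, Finset.sum_range_zero, he0,
          he _ (by norm_num), ha, ha, g1]
        simp [hA.one]
      · rw [show k + 1 + 1 + 1 = 3 + k by ring, Finset.sum_range_add]
        have h4 : ∑ x ∈ Finset.range k, ee S A (p ^ (3 + x)) * af A hA (p ^ (k + 1 + 1 - (3 + x))) = 0 := by
          refine Finset.sum_eq_zero fun i _ => ?_
          rw [he _ (by omega), g3 _ (by omega), zero_mul]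
        rw [h4, add_zero, Finset.sum_range_succ, Finset.sum_range_succ, Finset.sum_range_succ,
          Finset.sum_range_zero, he0, he _ (by norm_num), he _ (by norm_num), g1, g2, ha, ha, ha]
        have h5 := rec hA hp k
        rw [show k + 1 + 1 - 0 = k + 2 by omega, show k + 1 + 1 - 1 = k + 1 by omega,
          show k + 1 + 1 - 2 = k by omega, h5]
        ring
  · have h1 : (p ^ k).Coprime S := Nat.Coprime.pow_left k ((Nat.Prime.coprime_iff_not_dvd hp).2 hpS)
    rw [cf_apply S A (pow_ne_zero k hp.ne_zero) h1, Finset.sum_range_succ', he0]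
    have h4 : ∑ i ∈ Finset.range k, ee S A (p ^ (i + 1)) * af A hA (p ^ (k - (i + 1))) = 0 := by
      refine Finset.sum_eq_zero fun i _ => ?_
      rw [he _ (by omega), gl_of_not hpS, zero_mul]
    rw [h4, zero_add, one_mul, Nat.sub_zero, ha]

lemma sf_mul {S : ℕ} (hS : S ≠ 0) (hA : LD A) : sf S A * cf S A = af A hA := by
  rw [ArithmeticFunction.IsMultiplicative.eq_iff_eq_on_prime_powers _
    ((sf_mult S hA).mul (cf_mult S hA)) _ (af_mult hA)]
  intro p k hp
  rw [mul_pp _ _ hp]
  have ha : ∀ n, af A hA n = A n := fun _ => rfl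
  have hs0 : sf S A (p ^ 0) = 1 := by rw [pow_zero]; exact (sf_mult S hA).1
  have hc0 : cf S A (p ^ 0) = 1 := by rw [pow_zero]; exact (cf_mult S hA).1
  by_cases hpS : p ∣ S
  · rw [Finset.sum_range_succ, Nat.sub_self, hc0, mul_one]
    have h4 : ∑ i ∈ Finset.range k, sf S A (p ^ i) * cf S A (p ^ (k - i)) = 0 := by
      refine Finset.sum_eq_zero fun i hi => ?_
      have hi' := Finset.mem_range.1 hi
      obtain ⟨j, hj⟩ : ∃ j, k - i = j + 1 := ⟨k - i - 1, by omega⟩
      rw [hj, cf_apply' S A (not_coprime hp hpS), mul_zero]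
    rw [h4, zero_add, ha, sf_apply S A (pow_ne_zero k hp.ne_zero)]
    intro q hq
    have hq1 := Nat.prime_of_mem_primeFactors hq
    have hq2 := (Nat.prime_dvd_prime_iff_eq hq1 hp).1
      (hq1.dvd_of_dvd_pow (Nat.dvd_of_mem_primeFactors hq))
    rw [hq2]
    exact Nat.mem_primeFactors.2 ⟨hp, hpS, hS⟩
  · have h1 : (p ^ k).Coprime S := Nat.Coprime.pow_left k ((Nat.Prime.coprime_iff_not_dvd hp).2 hpS)
    rw [Finset.sum_range_succ', hs0, one_mul, Nat.sub_zero,
      cf_apply S A (pow_ne_zero k hp.ne_zero) h1, ha]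
    have h4 : ∑ i ∈ Finset.range k, sf S A (p ^ (i + 1)) * cf S A (p ^ (k - (i + 1))) = 0 := by
      refine Finset.sum_eq_zero fun i _ => ?_
      rw [sf_apply', zero_mul]
      intro h5
      have h6 := h5 (Nat.mem_primeFactors.2 ⟨hp, dvd_pow_self p (Nat.succ_ne_zero i),
        pow_ne_zero _ hp.ne_zero⟩)
      exact hpS (Nat.dvd_of_mem_primeFactors h6)
    rw [h4, zero_add]

end Z
end P004G
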