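import Vale.Agent.P004G.H175.ZR

/-!
# P004G, package G10: module Z2 (`StTF → StVan2`)
-/

open Real MeasureTheory Set Filter
open scoped ENNReal Topology ArithmeticFunction.zeta

namespace P004G
namespace Z

variable {A : ℕ → ℤ}

/-! ### the value of the inverse Euler factors to the left of `1` -/

lemma y_bound {p : ℕ} (hp : p.Prime) {z : ℝ} (hz : z ≤ 1 / 4) :
    √(p : ℝ) * (p : ℝ) ^ (z - 1) ≤ 0.85 := by
  have hp2 : (2 : ℝ) ≤ p := by exact_mod_cast hp.two_le
  have hp0 : (0 : ℝ) < p := by linarith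
  have e : √(p : ℝ) * (p : ℝ) ^ (z - 1) = (p : ℝ) ^ (z - 1 / 2) := by
    rw [Real.sqrt_eq_rpow, ← Real.rpow_add hp0]
    congr 1
    ring
  rw [e]
  by_contra h
  replace h := not_le.1 h
  have h1 : ((0.85 : ℝ)) ^ 4 < ((p : ℝ) ^ (z - 1 / 2)) ^ 4 :=
    pow_lt_pow_left₀ h (by norm_num) (by norm_num)
  have h2 : ((p : ℝ) ^ (z - 1 / 2)) ^ 4 ≤ 1 / 2 := by
    rw [← Real.rpow_natCast, ← Real.rpow_mul hp0.le]
    calc (p : ℝ) ^ ((z - 1 / 2) * ((4 : ℕ) : ℝ)) ≤ (p : ℝ) ^ (-1 : ℝ) := by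
          apply Real.rpow_le_rpow_of_exponent_le (by linarith)
          push_cast
          linarith
      _ ≤ 1 / 2 := by
          rw [Real.rpow_neg_one, one_div]
          exact inv_anti₀ (by norm_num) hp2
  norm_num at h1
  linarith

lemma local_lower (hA : LD A) {p : ℕ} (hp : p.Prime) {z : ℝ} (hz : z ≤ 1 / 4) :
    1 / 50 ≤ 1 - (A p : ℝ) * (p : ℝ) ^ (z - 1) + (Dl A p : ℝ) * ((p : ℝ) ^ (z - 1)) ^ 2 := by
  have hp2 : (2 : ℝ) ≤ p := by exact_mod_cast hp.two_le
  have hp0 : (0 : ℝ) < p := by linarith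
  have hy := y_bound hp hz
  set x : ℝ := (p : ℝ) ^ (z - 1) with hx
  have hx0 : 0 < x := by positivity
  have hs1 : 1 ≤ √(p : ℝ) := by rw [Real.one_le_sqrt]; linarith
  have hs2 : √(p : ℝ) * √(p : ℝ) = p := Real.mul_self_sqrt hp0.le
  rcases Dl_eq hA hp with ⟨h1, -⟩ | ⟨h1, h2⟩
  · have h3 := (abs_le.1 (abs_A_le hA hp)).2
    rw [h1]
    push_cast
    have h4 : (A p : ℝ) * x ≤ 2 * (√(p : ℝ) * x) := by nlinarith
    have h5 : (p : ℝ) * x ^ 2 = (√(p : ℝ) * x) ^ 2 := by rw [mul_pow, Real.sq_sqrt hp0.le]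
    rw [h5]
    nlinarith
  · have h3 : (A p : ℝ) ≤ 1 := by exact_mod_cast (abs_le.1 h2).2
    rw [h1]
    push_cast
    have h4 : (A p : ℝ) * x ≤ 1 * x := by gcongr
    have h5 : x ≤ √(p : ℝ) * x := by nlinarith
    linarith

/-- `e k k^{z-1}` -/
noncomputable def hz (S : ℕ) (A : ℕ → ℤ) (z : ℝ) : ArithmeticFunction ℝ :=
  ⟨fun k => (ee S A k : ℝ) * (k : ℝ) ^ (z - 1), by simp⟩

lemma hz_apply (S : ℕ) (A : ℕ → ℤ) (z : ℝ) (k : ℕ) :
    hz S A z k = (ee S A k : ℝ) * (k : ℝ) ^ (z - 1) := rfl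

lemma hz_mult (S : ℕ) (A : ℕ → ℤ) (z : ℝ) : (hz S A z).IsMultiplicative := by
  have he : (ee S A).IsMultiplicative := mf_mult _
  refine ⟨?_, ?_⟩
  · rw [hz_apply, he.1]; simp
  · intro m n h
    rw [hz_apply, hz_apply, hz_apply, he.2 h]
    push_cast
    rw [Real.mul_rpow (by positivity) (by positivity)]
    ring

lemma sum_hz {S : ℕ} (A : ℕ → ℤ) (z : ℝ) :
    ∑ k ∈ (K0 S).divisors, (ee S A k : ℝ) * (k : ℝ) ^ (z - 1) =
      ∏ p ∈ S.primeFactors, (1 - (A p : ℝ) * (p : ℝ) ^ (z - 1) +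
        (Dl A p : ℝ) * ((p : ℝ) ^ (z - 1)) ^ 2) := by
  have h1 : ((hz S A z) * (ζ : ArithmeticFunction ℝ)).IsMultiplicative :=
    (hz_mult S A z).mul ArithmeticFunction.isMultiplicative_zeta.natCast
  have h2 : ∑ k ∈ (K0 S).divisors, (ee S A k : ℝ) * (k : ℝ) ^ (z - 1) =
      ((hz S A z) * (ζ : ArithmeticFunction ℝ)) (K0 S) := by
    rw [ArithmeticFunction.coe_mul_zeta_apply]
    rfl
  rw [h2]
  unfold K0
  rw [ArithmeticFunction.IsMultiplicative.map_prod (fun p : ℕ => p ^ 2) h1]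
  · refine Finset.prod_congr rfl fun p hp => ?_
    have hpp := Nat.prime_of_mem_primeFactors hp
    have hpS := Nat.dvd_of_mem_primeFactors hp
    rw [ArithmeticFunction.coe_mul_zeta_apply, Nat.sum_divisors_prime_pow hpp,
      Finset.sum_range_succ, Finset.sum_range_succ, Finset.sum_range_succ, Finset.sum_range_zero,
      hz_apply, hz_apply, hz_apply]
    have e0 : ee S A (p ^ 0) = 1 := by rw [pow_zero]; exact (mf_mult _).1
    have e1 : ee S A (p ^ 1) = -A p := by
      rw [show ee S A (p ^ 1) = gl S A p 1 from mf_pp _ hpp one_ne_zero]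
      unfold gl; simp [hpS]
    have e2 : ee S A (p ^ 2) = Dl A p := by
      rw [show ee S A (p ^ 2) = gl S A p 2 from mf_pp _ hpp two_ne_zero]
      unfold gl; simp [hpS]
    rw [e0, e1, e2]
    have e3 : ((p ^ 2 : ℕ) : ℝ) ^ (z - 1) = ((p : ℝ) ^ (z - 1)) ^ 2 := by
      push_cast
      rw [← Real.rpow_natCast, ← Real.rpow_natCast, ← Real.rpow_mul (by positivity),
        ← Real.rpow_mul (by positivity), mul_comm]
    rw [e3]
    simp
    ring
  · intro p hp p' hp' hne
    have h3 := (Nat.coprime_primes (Nat.prime_of_mem_primeFactors hp)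
      (Nat.prime_of_mem_primeFactors hp')).2 hne
    exact Nat.Coprime.pow 2 2 h3

lemma lower (S : ℕ) (hA : LD A) {z : ℝ} (hz : z ≤ 1 / 4) :
    (1 / 50) ^ S.primeFactors.card ≤
      ∑ k ∈ (K0 S).divisors, (ee S A k : ℝ) * (k : ℝ) ^ (z - 1) := by
  rw [sum_hz, ← Finset.prod_const]
  exact Finset.prod_le_prod (fun _ _ => by norm_num) fun p hp =>
    local_lower hA (Nat.prime_of_mem_primeFactors hp) hz

/-! ### the symmetric combination -/

section

variable [Crv]

/-- the combination of dilates of `theta m` with a symmetric functional equation -/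
noncomputable def GG (A : ℕ → ℤ) (m : ℤ) (u : ℝ) : ℝ :=
  ∑ k ∈ (K0 bd).divisors, ((ee bd A k : ℝ) / (k : ℝ) ^ 2) * theta m (u / k)

variable {m : ℤ} {q κ : ℝ}

lemma GG_RD (hA : LD A) (h : FEq A q κ)
    (hm : ∀ n : ℕ, n.Coprime bd → A n = ca n * jacobiSym m n) : RD (GG A m) := by
  refine RD.sum fun k hk => ?_
  have hk0 : (0 : ℝ) < k := by exact_mod_cast Nat.pos_of_mem_divisors hk
  refine (((theta_RD hA h hm).dil (inv_pos.2 hk0)).const_mul
    ((ee bd A k : ℝ) / (k : ℝ) ^ 2)).congr fun u _ => ?_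
  rw [div_eq_inv_mul u]

lemma GG_eq (hA : LD A) (hm : ∀ n : ℕ, n.Coprime bd → A n = ca n * jacobiSym m n)
    {u : ℝ} (hu : 0 < u) :
    GG A m u = ∑ k ∈ (K0 bd).divisors, ∑ l ∈ (K0 bd).divisors,
      ((ee bd A k : ℝ) / (k : ℝ) ^ 2 * (ee bd A l : ℝ)) * TH A (l * (u / k)) := by
  unfold GG
  refine Finset.sum_congr rfl fun k hk => ?_
  have hk0 : (0 : ℝ) < k := by exact_mod_cast Nat.pos_of_mem_divisors hk
  rw [theta_eq_TH hA hm (by positivity), Finset.mul_sum]
  exact Finset.sum_congr rfl fun l _ => by ring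

lemma GG_fe (hA : LD A) (h : FEq A q κ)
    (hm : ∀ n : ℕ, n.Coprime bd → A n = ca n * jacobiSym m n) (u : ℝ) (hu : 0 < u) :
    GG A m u = κ / (q * u ^ 2) * GG A m (1 / (q * u)) := by
  obtain ⟨hq, hκ, hfe⟩ := h
  have hκ2 : κ * κ = 1 := by rcases hκ with h | h <;> rw [h] <;> norm_num
  rw [GG_eq hA hm (u := 1 / (q * u)) (by positivity), Finset.sum_comm, GG_eq hA hm hu,
    Finset.mul_sum]
  refine Finset.sum_congr rfl fun k hk => ?_
  rw [Finset.mul_sum]
  refine Finset.sum_congr rfl fun l hl => ?_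
  have hk0 : (0 : ℝ) < k := by exact_mod_cast Nat.pos_of_mem_divisors hk
  have hl0 : (0 : ℝ) < l := by exact_mod_cast Nat.pos_of_mem_divisors hl
  have h1 := hfe (l * (u / k)) (by positivity)
  have e : 1 / (q * (l * (u / k))) = k * (1 / (q * u) / l) := by
    field_simp
  rw [e] at h1
  rw [h1]
  field_simp

lemma theta_dil_zero (hA : LD A) (h : FEq A q κ)
    (hm : ∀ n : ℕ, n.Coprime bd → A n = ca n * jacobiSym m n) {r : ℕ} (hV : Van m r)
    {k : ℝ} (hk : 0 < k) (P : Polynomial ℝ) (hP : P.degree < r) :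
    ∫ u in Ioi (0 : ℝ), theta m (u / k) * P.eval (Real.log u) = 0 := by
  set P' : Polynomial ℝ := P.comp (Polynomial.X + Polynomial.C (Real.log k)) with hP'
  have hdeg : P'.degree < r := by
    by_cases h0 : P = 0
    · rw [hP', h0, Polynomial.zero_comp, Polynomial.degree_zero]
      exact WithBot.bot_lt_coe r
    · have h1 : P.natDegree < r := (Polynomial.natDegree_lt_iff_degree_lt h0).2 hP
      have h2 : P'.natDegree ≤ P.natDegree := by
        refine Polynomial.natDegree_comp_le.trans ?_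
        rw [Polynomial.natDegree_X_add_C, mul_one]
      refine lt_of_le_of_lt Polynomial.degree_le_natDegree ?_
      exact_mod_cast lt_of_le_of_lt h2 h1
  have h0 := (theta_RD hA h hm).poly_zero hV P' hdeg
  have h1 := integral_comp_mul_left_Ioi (fun v => theta m v * P.eval (Real.log (k * v))) 0
    (inv_pos.2 hk)
  rw [mul_zero] at h1
  have h2 : ∫ v in Ioi (0 : ℝ), theta m v * P.eval (Real.log (k * v)) = 0 := by
    refine Eq.trans ?_ h0
    refine setIntegral_congr_fun measurableSet_Ioi fun v hv => ?_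
    have hv0 : (0 : ℝ) < v := hv
    simp only [hP', Polynomial.eval_comp, Polynomial.eval_add, Polynomial.eval_X,
      Polynomial.eval_C]
    rw [Real.log_mul hk.ne' hv0.ne', add_comm]
  rw [h2, smul_zero] at h1
  refine Eq.trans ?_ h1
  refine setIntegral_congr_fun measurableSet_Ioi fun u hu => ?_
  show theta m (u / k) * P.eval (Real.log u) =
    theta m (k⁻¹ * u) * P.eval (Real.log (k * (k⁻¹ * u)))
  rw [← mul_assoc, mul_inv_cancel₀ hk.ne', one_mul, div_eq_inv_mul]

lemma GG_zero (hA : LD A) (h : FEq A q κ)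
    (hm : ∀ n : ℕ, n.Coprime bd → A n = ca n * jacobiSym m n) {r : ℕ} (hV : Van m r)
    (P : Polynomial ℝ) (hP : P.degree < r) :
    ∫ u in Ioi (0 : ℝ), GG A m u * P.eval (Real.log u) = 0 := by
  have e : ∀ u : ℝ, GG A m u * P.eval (Real.log u) = ∑ k ∈ (K0 bd).divisors,
      ((ee bd A k : ℝ) / (k : ℝ) ^ 2) * (theta m (u / k) * P.eval (Real.log u)) := by
    intro u
    unfold GG
    rw [Finset.sum_mul]
    exact Finset.sum_congr rfl fun k _ => by ring
  simp_rw [e]
  rw [integral_finsetSum]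
  · refine Finset.sum_eq_zero fun k hk => ?_
    have hk0 : (0 : ℝ) < k := by exact_mod_cast Nat.pos_of_mem_divisors hk
    rw [integral_const_mul, theta_dil_zero hA h hm hV hk0 P hP, mul_zero]
  · intro k hk
    have hk0 : (0 : ℝ) < k := by exact_mod_cast Nat.pos_of_mem_divisors hk
    apply Integrable.const_mul
    have h1 := ((theta_RD hA h hm).dil (inv_pos.2 hk0)).integrable_poly P
    refine h1.congr_fun (fun u _ => ?_) measurableSet_Ioi
    simp only
    rw [div_eq_inv_mul u]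

omit [Crv] in
/-- the folded identity for a function with a functional equation -/
lemma folded {f : ℝ → ℝ} (hf : RD f) (hQ : 0 < q)
    (hfe : ∀ u : ℝ, 0 < u → f u = κ / (q * u ^ 2) * f (1 / (q * u)))
    {r : ℕ} (h0 : ∀ P : Polynomial ℝ, P.degree < r →
      ∫ u in Ioi (0 : ℝ), f u * P.eval (Real.log u) = 0)
    {Y : ℕ} (hY : 1 ≤ Y) (P : Polynomial ℝ) (hP : P.degree < r) :
    ∫ u in Ioi (1 / √q), f u * (P.eval (Real.log (u * Y)) +
      κ * P.eval (2 * Real.log (Y / √q) - Real.log (u * Y))) = 0 := by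
  have hs : 0 < √q := Real.sqrt_pos.2 hQ
  have hY0 : (0 : ℝ) < Y := by exact_mod_cast hY
  set P' : Polynomial ℝ := P.comp (Polynomial.X + Polynomial.C (Real.log Y)) with hP'
  have hdeg : P'.degree < r := by
    by_cases h0 : P = 0
    · rw [hP', h0, Polynomial.zero_comp, Polynomial.degree_zero]
      exact WithBot.bot_lt_coe r
    · have h1 : P.natDegree < r := (Polynomial.natDegree_lt_iff_degree_lt h0).2 hP
      have h2 : P'.natDegree ≤ P.natDegree := by
        refine Polynomial.natDegree_comp_le.trans ?_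
        rw [Polynomial.natDegree_X_add_C, mul_one]
      refine lt_of_le_of_lt Polynomial.degree_le_natDegree ?_
      exact_mod_cast lt_of_le_of_lt h2 h1
  have h0 := h0 P' hdeg
  rw [fold_moment hf hQ hfe (a := 1 / √q) (by positivity) P'] at h0
  have e1 : 1 / (q * (1 / √q)) = 1 / √q := by
    have : q = √q * √q := (Real.mul_self_sqrt hQ.le).symm
    rw [this]
    field_simp
    rw [Real.sqrt_sq hs.le]
  rw [e1, ← integral_const_mul] at h0
  have hlog : Real.log (Y / √q) = Real.log Y - Real.log q / 2 := by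
    rw [Real.log_div hY0.ne' hs.ne', Real.log_sqrt hQ.le]
  have hint := hf.integrable_poly P'
  have i1 : IntegrableOn (fun u => f u * P'.eval (Real.log u)) (Ioi (1 / √q)) :=
    hint.mono_set (Ioi_subset_Ioi (by positivity))
  set P'' : Polynomial ℝ := P'.comp (-Polynomial.X - Polynomial.C (Real.log q)) with hP''
  have i2 : IntegrableOn (fun u => κ * (f u * P'.eval (-Real.log q - Real.log u)))
      (Ioi (1 / √q)) := by
    have h1 := (hf.integrable_poly P'').mono_set
      (Ioi_subset_Ioi (by positivity : (0 : ℝ) ≤ 1 / √q))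
    refine (h1.const_mul κ).congr (Eventually.of_forall fun u => ?_)
    simp only [hP'', Polynomial.eval_comp, Polynomial.eval_sub, Polynomial.eval_neg,
      Polynomial.eval_X, Polynomial.eval_C]
    congr 3
    ring
  rw [← integral_add i1 i2] at h0
  rw [← h0]
  refine setIntegral_congr_fun measurableSet_Ioi fun u hu => ?_
  have hu0 : 0 < u := lt_trans (by positivity : (0 : ℝ) < 1 / √q) hu
  have hlu : Real.log (u * Y) = Real.log u + Real.log Y := Real.log_mul hu0.ne' hY0.ne'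
  simp only [hP', Polynomial.eval_comp, Polynomial.eval_add, Polynomial.eval_X, Polynomial.eval_C]
  rw [hlu, hlog]
  have e2 : 2 * (Real.log Y - Real.log q / 2) - (Real.log u + Real.log Y) =
      -Real.log q - Real.log u + Real.log Y := by ring
  rw [e2]
  ring

end

end Z

variable [Crv]

open Z in
/-- Module Z2 -/
theorem pfZ2 : StZ2 := by
  rintro ⟨k₀, hk₀, hTF⟩
  refine ⟨K0 bd, k₀, 1, (1 / 50) ^ bd.primeFactors.card, 1 / 4,
    Nat.one_le_iff_ne_zero.2 (K0_ne _), hk₀, le_rfl, by positivity, by norm_num, fun m hm => ?_⟩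
  obtain ⟨A, q, κ, hA, hfe, hm', h1, h2⟩ := hTF m hm
  refine ⟨κ, q, fun k => (ee bd A k : ℝ) / (k : ℝ) ^ 2, hfe.2.1, hfe.1, h1, h2, ?_, ?_, ?_⟩
  · intro k
    rcases Nat.eq_zero_or_pos k with rfl | hk
    · simp
    · have hk0 : (0 : ℝ) < k := by exact_mod_cast hk
      simp only
      rw [abs_div, abs_of_pos (by positivity : (0 : ℝ) < (k : ℝ) ^ 2), div_le_one (by positivity)]
      exact (PB_ee bd hA).le_sq k
  · intro z _ hz
    have h3 := lower bd hA hz
    have h4 : ∑ k ∈ (K0 bd).divisors, (ee bd A k : ℝ) / (k : ℝ) ^ 2 * (k : ℝ) ^ (1 + z) =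
        ∑ k ∈ (K0 bd).divisors, (ee bd A k : ℝ) * (k : ℝ) ^ (z - 1) := by
      refine Finset.sum_congr rfl fun k hk => ?_
      have hk0 : (0 : ℝ) < k := by exact_mod_cast Nat.pos_of_mem_divisors hk
      have e : (k : ℝ) ^ (1 + z) = (k : ℝ) ^ (z - 1) * (k : ℝ) ^ 2 := by
        rw [← Real.rpow_two, ← Real.rpow_add hk0]
        congr 1
        ring
      rw [e]
      field_simp
    simp only
    rw [h4]
    exact h3.trans (le_abs_self _)
  · intro r Y P hY hV hP
    exact folded (GG_RD hA hfe hm') hfe.1 (GG_fe hA hfe hm')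
      (fun P hP => GG_zero hA hfe hm' hV P hP) hY P hP

end P004G
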