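import Vale.Agent.P004G.H175.Z0

/-!
# P004G, package G10, part 1: `theta m` and `TH A`

* `Z.theta_eq_TH` : `theta m u = ∑ k ∣ K0, e k * TH A (k u)`;
* `Z.TH_eq_theta` : `TH A u = ∑' a, s a * theta m (a u)`.
-/

open Real MeasureTheory Set
open scoped ENNReal

namespace P004G
namespace Z

variable {A : ℕ → ℤ}

/-- polynomially bounded arithmetic functions -/
def PB (f : ArithmeticFunction ℤ) : Prop := ∀ n : ℕ, |(f n : ℝ)| ≤ dv n * √(n : ℝ)

lemma dv_nonneg (n : ℕ) : 0 ≤ dv n := by unfold P004.dv; positivity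

lemma dv_sqrt_le (n : ℕ) : dv n * √(n : ℝ) ≤ (n : ℝ) ^ 2 := by
  rcases Nat.eq_zero_or_pos n with rfl | hn
  · simp
  have hn' : (1 : ℝ) ≤ n := by exact_mod_cast hn
  have h1 : √(n : ℝ) ≤ n := by
    rw [Real.sqrt_le_left (by positivity)]
    nlinarith
  have h2 : dv n ≤ n := by
    unfold P004.dv
    exact_mod_cast Nat.card_divisors_le_self n
  calc dv n * √(n : ℝ) ≤ n * n := by gcongr
    _ = (n : ℝ) ^ 2 := by ring

lemma PB.le_sq {f : ArithmeticFunction ℤ} (hf : PB f) (n : ℕ) : |(f n : ℝ)| ≤ (n : ℝ) ^ 2 :=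
  (hf n).trans (dv_sqrt_le n)

lemma PB_af (hA : LD A) : PB (af A hA) := pfLbound A hA

lemma PB_cf (S : ℕ) (hA : LD A) : PB (cf S A) := by
  intro n
  rcases eq_or_ne n 0 with rfl | hn
  · simp
  by_cases h : n.Coprime S
  · rw [cf_apply S A hn h]; exact pfLbound A hA n
  · rw [cf_apply' S A h]
    simp only [Int.cast_zero, abs_zero]
    exact mul_nonneg (dv_nonneg n) (Real.sqrt_nonneg _)

lemma PB_sf (S : ℕ) (hA : LD A) : PB (sf S A) := by
  intro n
  rcases eq_or_ne n 0 with rfl | hn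
  · simp
  by_cases h : n.primeFactors ⊆ S.primeFactors
  · rw [sf_apply S A hn h]; exact pfLbound A hA n
  · rw [sf_apply' S A h]
    simp only [Int.cast_zero, abs_zero]
    exact mul_nonneg (dv_nonneg n) (Real.sqrt_nonneg _)

lemma PB_of_pp {f : ArithmeticFunction ℤ} (hf : f.IsMultiplicative)
    (h : ∀ p k : ℕ, p.Prime → k ≠ 0 → |(f (p ^ k) : ℝ)| ≤ (k + 1) * √(p : ℝ) ^ k) : PB f := by
  intro n
  induction n using Nat.recOnPosPrimePosCoprime with
  | prime_pow p k hp hk =>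
    refine (h p k hp hk.ne').trans (le_of_eq ?_)
    have h1 : dv (p ^ k) = k + 1 := by
      unfold P004.dv
      rw [Nat.divisors_prime_pow hp, Finset.card_map, Finset.card_range]
      push_cast; ring
    have h2 : √((p ^ k : ℕ) : ℝ) = √(p : ℝ) ^ k := by
      push_cast
      rw [Real.sqrt_eq_rpow, Real.sqrt_eq_rpow, ← Real.rpow_natCast, ← Real.rpow_natCast,
        ← Real.rpow_mul (by positivity), ← Real.rpow_mul (by positivity), mul_comm]
    rw [h1, h2]
  | zero => simp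
  | one => rw [hf.1]; simp [P004.dv]
  | coprime a b ha hb hab iha ihb =>
    rw [hf.2 hab]
    have h1 : dv (a * b) = dv a * dv b := by
      unfold P004.dv
      rw [hab.card_divisors_mul]
      push_cast; ring
    rw [h1]
    push_cast
    rw [abs_mul, Real.sqrt_mul (by positivity)]
    calc |(f a : ℝ)| * |(f b : ℝ)| ≤ (dv a * √(a : ℝ)) * (dv b * √(b : ℝ)) :=
          mul_le_mul iha ihb (abs_nonneg _) (mul_nonneg (dv_nonneg a) (Real.sqrt_nonneg _))
      _ = _ := by ring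

lemma abs_A_le (hA : LD A) {p : ℕ} (hp : p.Prime) : |(A p : ℝ)| ≤ 2 * √(p : ℝ) := by
  have := pp_bound hA hp 1
  simpa [one_add_one_eq_two] using this

lemma abs_Dl_le (hA : LD A) {p : ℕ} (hp : p.Prime) : |(Dl A p : ℝ)| ≤ p := by
  rcases Dl_eq hA hp with ⟨h, -⟩ | ⟨h, -⟩
  · rw [h]; simp
  · rw [h]; simp

lemma PB_ee (S : ℕ) (hA : LD A) : PB (ee S A) := by
  refine PB_of_pp (mf_mult _) fun p k hp hk => ?_
  have h0 : (0 : ℝ) ≤ (k + 1) * √(p : ℝ) ^ k := by positivity
  rw [show ee S A (p ^ k) = gl S A p k from mf_pp _ hp hk]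
  unfold gl
  by_cases h1 : p ∣ S
  · rw [if_neg (by simpa using h1)]
    rcases eq_or_ne k 1 with rfl | h2
    · rw [if_pos rfl]
      push_cast
      rw [abs_neg, pow_one, one_add_one_eq_two]
      exact abs_A_le hA hp
    rcases eq_or_ne k 2 with rfl | h3
    · rw [if_neg h2, if_pos rfl, Real.sq_sqrt (by positivity)]
      refine (abs_Dl_le hA hp).trans ?_
      have : (0 : ℝ) ≤ p := by positivity
      push_cast
      linarith
    · rw [if_neg h2, if_neg h3]
      simpa using h0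
  · rw [if_pos h1]
    simpa using h0

/-! ### exponential sums and convolution -/

/-- `4 ∑ f n e^{-π n u}` -/
noncomputable def TF (f : ArithmeticFunction ℤ) (u : ℝ) : ℝ :=
  4 * ∑' n : ℕ, (f n : ℝ) * Real.exp (-π * n * u)

lemma TF_af (hA : LD A) (u : ℝ) : TF (af A hA) u = TH A u := rfl

lemma summable_TF {f : ArithmeticFunction ℤ} (hf : PB f) {u : ℝ} (hu : 0 < u) :
    Summable fun n : ℕ => |(f n : ℝ)| * Real.exp (-π * n * u) := by
  have h := Real.summable_pow_mul_exp_neg_nat_mul 2 (r := π * u) (by positivity)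
  refine h.of_nonneg_of_le (fun n => by positivity) fun n => ?_
  rw [show -π * n * u = -(π * u) * n by ring]
  exact mul_le_mul_of_nonneg_right (hf.le_sq n) (Real.exp_pos _).le

lemma summable_TF' {f : ArithmeticFunction ℤ} (hf : PB f) {u : ℝ} (hu : 0 < u) :
    Summable fun n : ℕ => (f n : ℝ) * Real.exp (-π * n * u) := by
  refine Summable.of_norm_bounded (summable_TF hf hu) fun n => ?_
  rw [norm_mul, Real.norm_eq_abs, Real.norm_of_nonneg (Real.exp_pos _).le]

lemma summable_pair {f g : ArithmeticFunction ℤ} (hf : PB f) (hg : PB g) {u : ℝ} (hu : 0 < u) :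
    Summable fun x : ℕ × ℕ => (f x.1 : ℝ) * g x.2 * Real.exp (-π * (x.1 * x.2 : ℕ) * u) := by
  have hu2 : 0 < u / 2 := by positivity
  have h := (summable_TF hf hu2).mul_of_nonneg (summable_TF hg hu2)
    (fun n => by positivity) (fun n => by positivity)
  refine Summable.of_norm_bounded h fun x => ?_
  obtain ⟨a, b⟩ := x
  rw [norm_mul, norm_mul, Real.norm_eq_abs, Real.norm_eq_abs, Real.norm_of_nonneg (Real.exp_pos _).le]
  rcases Nat.eq_zero_or_pos a with rfl | ha
  · simp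
  rcases Nat.eq_zero_or_pos b with rfl | hb
  · simp
  have ha1 : (1 : ℝ) ≤ a := by exact_mod_cast ha
  have hb1 : (1 : ℝ) ≤ b := by exact_mod_cast hb
  have h2 : Real.exp (-π * (a * b : ℕ) * u) ≤
      Real.exp (-π * a * (u / 2)) * Real.exp (-π * b * (u / 2)) := by
    rw [← Real.exp_add]
    apply Real.exp_le_exp.2
    push_cast
    have h3 : (a : ℝ) + b ≤ 2 * (a * b) := by nlinarith
    have h4 : 0 < π * u := by positivity
    nlinarith [mul_le_mul_of_nonneg_left h3 h4.le]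
  calc |(f a : ℝ)| * |(g b : ℝ)| * Real.exp (-π * (a * b : ℕ) * u) ≤
      |(f a : ℝ)| * |(g b : ℝ)| * (Real.exp (-π * a * (u / 2)) * Real.exp (-π * b * (u / 2))) := by
        gcongr
    _ = _ := by ring

lemma hasSum_conv {f g : ArithmeticFunction ℤ} (hf : PB f) (hg : PB g) {u : ℝ} (hu : 0 < u) :
    HasSum (fun n : ℕ => ((f * g) n : ℝ) * Real.exp (-π * n * u))
      (∑' x : ℕ × ℕ, (f x.1 : ℝ) * g x.2 * Real.exp (-π * (x.1 * x.2 : ℕ) * u)) := by
  have h := (summable_pair hf hg hu).hasSum.tsum_fiberwise (fun x : ℕ × ℕ => x.1 * x.2)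
  have e : (fun n : ℕ => ((f * g) n : ℝ) * Real.exp (-π * n * u)) = fun n : ℕ =>
      ∑' b : (fun x : ℕ × ℕ => x.1 * x.2) ⁻¹' {n}, (f b.1.1 : ℝ) * g b.1.2 *
        Real.exp (-π * (b.1.1 * b.1.2 : ℕ) * u) := by
    funext n
    rcases eq_or_ne n 0 with rfl | hn
    · have h0 : ∀ b : (fun x : ℕ × ℕ => x.1 * x.2) ⁻¹' {0}, (f b.1.1 : ℝ) * g b.1.2 *
          Real.exp (-π * (b.1.1 * b.1.2 : ℕ) * u) = 0 := by
        rintro ⟨⟨a, b⟩, hp⟩
        have hp' : a * b = 0 := hp
        rcases Nat.mul_eq_zero.1 hp' with rfl | rfl <;> simp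
      simp only [h0, tsum_zero]
      simp
    · rw [show (fun x : ℕ × ℕ => x.1 * x.2) ⁻¹' {n} = (n.divisorsAntidiagonal : Set (ℕ × ℕ)) by
        ext; simp [hn],
        Finset.tsum_subtype' n.divisorsAntidiagonal fun x : ℕ × ℕ => (f x.1 : ℝ) * g x.2 *
          Real.exp (-π * (x.1 * x.2 : ℕ) * u), ArithmeticFunction.mul_apply]
      push_cast
      rw [Finset.sum_mul]
      refine Finset.sum_congr rfl fun x hx => ?_
      rw [← (Nat.mem_divisorsAntidiagonal.1 hx).1]
      push_cast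
      ring
  rw [e]
  exact h

lemma TF_mul {f g : ArithmeticFunction ℤ} (hf : PB f) (hg : PB g) {u : ℝ} (hu : 0 < u) :
    HasSum (fun a : ℕ => (f a : ℝ) * TF g (a * u)) (TF (f * g) u) := by
  have h1 := (summable_pair hf hg hu)
  have h2 := h1.hasSum.prod_fiberwise (g := fun a : ℕ => (f a : ℝ) *
    ∑' b : ℕ, (g b : ℝ) * Real.exp (-π * b * (a * u))) ?_
  · have h3 := (hasSum_conv hf hg hu).tsum_eq
    have h4 := h2.mul_left 4
    unfold TF
    rw [h3]
    refine h4.congr_fun ?_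
    intro a
    ring
  · intro a
    rcases Nat.eq_zero_or_pos a with rfl | ha
    · simp only [ArithmeticFunction.map_zero, Int.cast_zero, zero_mul]
      exact hasSum_zero
    · have ha0 : (0 : ℝ) < a := by exact_mod_cast ha
      have h3 := ((summable_TF' hg (mul_pos ha0 hu)).hasSum).mul_left (f a : ℝ)
      refine h3.congr_fun ?_
      intro b
      push_cast
      rw [show -π * ((a : ℝ) * b) * u = -π * b * (a * u) by ring]
      ring

/-- `∏ p²` over the prime factors of `S` -/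
def K0 (S : ℕ) : ℕ := ∏ p ∈ S.primeFactors, p ^ 2

lemma K0_ne (S : ℕ) : K0 S ≠ 0 :=
  Finset.prod_ne_zero_iff.2 fun _ hp => pow_ne_zero 2 (Nat.prime_of_mem_primeFactors hp).ne_zero

lemma ee_support {S : ℕ} (hS : S ≠ 0) {k : ℕ} (h : ee S A k ≠ 0) : k ∈ (K0 S).divisors := by
  rcases eq_or_ne k 0 with rfl | hk
  · simp at h
  rw [Nat.mem_divisors]
  refine ⟨?_, K0_ne S⟩
  unfold ee at h
  rw [mf_apply _ hk] at h
  unfold Finsupp.prod at h
  rw [Finset.prod_ne_zero_iff] at h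
  have h1 : ∀ p ∈ k.primeFactors, p ∣ S ∧ k.factorization p ≤ 2 := by
    intro p hp
    have h2 := h p (by simpa using hp)
    unfold gl at h2
    by_cases hpS : p ∣ S
    · rw [if_neg (by simpa using hpS)] at h2
      refine ⟨hpS, ?_⟩
      by_contra h3
      rw [if_neg (by omega), if_neg (by omega)] at h2
      exact h2 rfl
    · rw [if_pos hpS] at h2
      exact absurd rfl h2
  have h3 : k = ∏ p ∈ k.primeFactors, p ^ k.factorization p := by
    conv_lhs => rw [← Nat.prod_factorization_pow_eq_self hk]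
    rfl
  have h4 : (∏ p ∈ k.primeFactors, p ^ k.factorization p) ∣ ∏ p ∈ k.primeFactors, p ^ 2 :=
    Finset.prod_dvd_prod_of_dvd _ _ fun p hp => pow_dvd_pow p (h1 p hp).2
  have h5 : (∏ p ∈ k.primeFactors, p ^ 2) ∣ K0 S := by
    refine Finset.prod_dvd_prod_of_subset _ _ _ fun p hp => ?_
    exact Nat.mem_primeFactors.2 ⟨Nat.prime_of_mem_primeFactors hp, (h1 p hp).1, hS⟩
  rw [h3]
  exact h4.trans h5

section

variable [Crv]

lemma cf_eq {m : ℤ} (hm : ∀ n : ℕ, n.Coprime bd → A n = ca n * jacobiSym m n) (n : ℕ) :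
    (cf bd A n : ℝ) = (ca n : ℝ) * chi m n := by
  rcases eq_or_ne n 0 with rfl | hn
  · rw [pfCoef.zero]; simp
  by_cases h : n.Coprime bd
  · rw [cf_apply bd A hn h, hm n h]
    unfold P004.chi
    push_cast
    ring
  · rw [cf_apply' bd A h, pfCoef.bad n h]; simp

lemma TF_cf {m : ℤ} (hm : ∀ n : ℕ, n.Coprime bd → A n = ca n * jacobiSym m n) (u : ℝ) :
    TF (cf bd A) u = theta m u := by
  unfold TF theta
  simp only [cf_eq hm]

/-- `theta m` as a finite combination of dilates of `TH A` -/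
theorem theta_eq_TH (hA : LD A) {m : ℤ}
    (hm : ∀ n : ℕ, n.Coprime bd → A n = ca n * jacobiSym m n) {u : ℝ} (hu : 0 < u) :
    theta m u = ∑ k ∈ (K0 bd).divisors, (ee bd A k : ℝ) * TH A (k * u) := by
  have h := TF_mul (PB_ee bd hA) (PB_af hA) hu
  rw [ee_mul bd hA, TF_cf hm] at h
  refine h.unique ?_
  refine hasSum_sum_of_ne_finset_zero fun k hk => ?_
  have h0 : ee bd A k = 0 := by
    by_contra h1
    exact hk (ee_support bd_ne h1)
  rw [h0, Int.cast_zero, zero_mul]

/-- `TH A` as an infinite combination of dilates of `theta m` -/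
theorem TH_eq_theta (hA : LD A) {m : ℤ}
    (hm : ∀ n : ℕ, n.Coprime bd → A n = ca n * jacobiSym m n) {u : ℝ} (hu : 0 < u) :
    HasSum (fun a : ℕ => (sf bd A a : ℝ) * theta m (a * u)) (TH A u) := by
  have h := TF_mul (PB_sf bd hA) (PB_cf bd hA) hu
  rw [sf_mul bd_ne hA] at h
  simpa only [TF_cf hm, TF_af hA] using h

end

end Z
end P004G
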